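import Vale.Agent.Lib.P147.ChainBin
import Vale.Agent.Lib.P147.ChainDens

/-!
# Density bound for a walk on `ℤ^ι` whose law has atoms at the corners of the unit cube
-/

open scoped ENNReal

set_option linter.unusedSectionVars false

namespace Vale.Agent.Lib.P147.Poly

variable {ι : Type*} [Fintype ι] [DecidableEq ι]

/-- The corner of the unit cube attached to a Boolean vector. -/
def ind (σ : ι → Bool) : ι → ℤ := fun j => if σ j then 1 else 0

lemma ind_injective : Function.Injective (ind : (ι → Bool) → ι → ℤ) := by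
  intro σ τ h
  funext j
  have := congrFun h j
  simp only [ind] at this
  cases hσ : σ j <;> cases hτ : τ j <;> simp_all

/-- Average over the corners of the unit cube. -/
noncomputable def avg (f : (ι → ℤ) → ℝ≥0∞) (u : ι → ℤ) : ℝ≥0∞ :=
  (∑ σ : ι → Bool, f (u - ind σ)) / (2 : ℝ≥0∞) ^ Fintype.card ι

/-- The point mass at the origin. -/
noncomputable def del (u : ι → ℤ) : ℝ≥0∞ := if u = 0 then 1 else 0

lemma sum_bool_prod (g : ι → Bool → ℝ) :
    ∑ σ : ι → Bool, ∏ j, g j (σ j) = ∏ j, (g j false + g j true) := by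
  have h := Fintype.prod_sum (fun j (b : Bool) => g j b)
  rw [← h]
  refine Finset.prod_congr rfl fun j _ => ?_
  rw [Fintype.sum_bool, add_comm]

/-- The iterated average of the point mass. -/
lemma iterate_avg_del (r : ℕ) (u : ι → ℤ) :
    (avg^[r] del) u = ENNReal.ofReal (∏ j, binW r (u j)) := by
  induction r generalizing u with
  | zero =>
    simp only [Function.iterate_zero, id, del, binW_zero]
    by_cases h : u = 0
    · subst h
      simp
    · rw [if_neg h]
      obtain ⟨j, hj⟩ : ∃ j, u j ≠ 0 := by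
        by_contra hcon
        push Not at hcon
        exact h (funext hcon)
      rw [Finset.prod_eq_zero (Finset.mem_univ j) (if_neg hj)]
      simp
  | succ r ih =>
    rw [Function.iterate_succ_apply', avg]
    simp only [ih]
    have hb : ∀ σ : ι → Bool, 0 ≤ ∏ j, binW r ((u - ind σ) j) := fun σ =>
      Finset.prod_nonneg fun j _ => binW_nonneg _ _
    rw [← ENNReal.ofReal_sum_of_nonneg fun σ _ => hb σ]
    have h1 : ∑ σ : ι → Bool, ∏ j, binW r ((u - ind σ) j) =
        2 ^ Fintype.card ι * ∏ j, binW (r + 1) (u j) := by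
      have h2 := sum_bool_prod (fun j (b : Bool) => binW r (u j - if b then 1 else 0))
      have h3 : ∀ σ : ι → Bool, ∏ j, binW r ((u - ind σ) j) =
          ∏ j, binW r (u j - if σ j then 1 else 0) := fun σ => rfl
      simp_rw [h3]
      rw [h2]
      have h4 : ∀ j, binW r (u j - if false then 1 else 0) + binW r (u j - if true then 1 else 0) =
          2 * binW (r + 1) (u j) := by
        intro j
        rw [binW_succ]
        simp
        ring
      refine (Finset.prod_congr rfl fun j _ => h4 j).trans ?_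
      rw [Finset.prod_mul_distrib, Finset.prod_const, Finset.card_univ]
    rw [h1]
    have h5 : (2 : ℝ≥0∞) ^ Fintype.card ι = ENNReal.ofReal (2 ^ Fintype.card ι) := by
      rw [ENNReal.ofReal_pow (by norm_num)]
      simp
    rw [h5, ← ENNReal.ofReal_div_of_pos (by positivity)]
    congr 1
    field_simp

lemma binW_le_rpow (r : ℕ) (a : ℤ) : binW r a ≤ ((r : ℝ) + 1) ^ (-(1 / 2 : ℝ)) := by
  have hr : (0 : ℝ) < (r : ℝ) + 1 := by positivity
  have h1 := binW_mul_le r a a
  have hy : 0 ≤ ((r : ℝ) + 1) ^ (-(1 / 2 : ℝ)) := by positivity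
  have h2 : (((r : ℝ) + 1) ^ (-(1 / 2 : ℝ))) ^ 2 = 1 / ((r : ℝ) + 1) := by
    rw [← Real.rpow_natCast, ← Real.rpow_mul hr.le]
    norm_num
    rw [Real.rpow_neg_one]
  have h3 : binW r a ^ 2 ≤ (((r : ℝ) + 1) ^ (-(1 / 2 : ℝ))) ^ 2 := by
    rw [h2, sq]
    exact h1
  exact (pow_le_pow_iff_left₀ (binW_nonneg _ _) hy (by norm_num)).mp h3

/-- The half of the dimension. -/
noncomputable def sDim (ι : Type*) [Fintype ι] : ℝ := (Fintype.card ι : ℝ) / 2

lemma iterate_avg_del_le (r : ℕ) (u : ι → ℤ) :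
    (avg^[r] del) u ≤ ENNReal.ofReal (((r : ℝ) + 1) ^ (-sDim ι)) := by
  rw [iterate_avg_del]
  refine ENNReal.ofReal_le_ofReal ?_
  have hr : (0 : ℝ) < (r : ℝ) + 1 := by positivity
  calc ∏ j, binW r (u j) ≤ ∏ _j : ι, ((r : ℝ) + 1) ^ (-(1 / 2 : ℝ)) :=
        Finset.prod_le_prod (fun j _ => binW_nonneg _ _) (fun j _ => binW_le_rpow _ _)
    _ = _ := by
        rw [Finset.prod_const, Finset.card_univ, ← Real.rpow_natCast, ← Real.rpow_mul hr.le, sDim]
        congr 1
        ring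

section Op

variable {Blk : Type*} (w : Blk → ℝ≥0∞) (Δ : Blk → ι → ℤ)

/-- The transition operator of the free chain, acting on laws. -/
noncomputable def stepOp (f : (ι → ℤ) → ℝ≥0∞) (z : ι → ℤ) : ℝ≥0∞ := ∑' π, w π * f (z - Δ π)

/-- The law of the free chain after `i` steps. -/
noncomputable def dens : ℕ → (ι → ℤ) → ℝ≥0∞
  | 0 => del
  | i + 1 => stepOp w Δ (dens i)

lemma avg_stepOp (f : (ι → ℤ) → ℝ≥0∞) :
    avg (stepOp w Δ f) = stepOp w Δ (avg f) := by
  funext u
  simp only [avg, stepOp]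
  simp_rw [div_eq_mul_inv]
  rw [← Summable.tsum_finsetSum (fun _ _ => ENNReal.summable), ← ENNReal.tsum_mul_right]
  refine tsum_congr fun π => ?_
  rw [← mul_assoc, Finset.mul_sum]
  congr 1
  refine Finset.sum_congr rfl fun σ _ => ?_
  rw [sub_right_comm]

lemma iterate_avg_stepOp (r : ℕ) (f : (ι → ℤ) → ℝ≥0∞) :
    avg^[r] (stepOp w Δ f) = stepOp w Δ (avg^[r] f) := by
  induction r with
  | zero => rfl
  | succ r ih =>
    rw [Function.iterate_succ_apply', Function.iterate_succ_apply', ih, avg_stepOp]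

/-- Bernoulli for a negative exponent. -/
lemma rpow_neg_ge {s u : ℝ} (hs : 1 ≤ s) (hu : 0 ≤ u) : 1 - s * u ≤ (1 + u) ^ (-s) := by
  have h1u : 0 < 1 + u := by linarith
  have h0 : -1 ≤ -u / (1 + u) := by
    rw [le_div_iff₀ h1u]
    linarith
  have h1 := one_add_mul_self_le_rpow_one_add h0 hs
  have e : 1 + -u / (1 + u) = (1 + u)⁻¹ := by
    field_simp
    ring
  rw [e, Real.inv_rpow h1u.le, ← Real.rpow_neg h1u.le] at h1
  refine le_trans ?_ h1
  have h2 : u / (1 + u) ≤ u := div_le_self hu (by linarith)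
  have h3 : s * (-u / (1 + u)) = - (s * (u / (1 + u))) := by ring
  rw [h3]
  have : s * (u / (1 + u)) ≤ s * u := mul_le_mul_of_nonneg_left h2 (by linarith)
  linarith

lemma real_ineq {x β s : ℝ} (hx : 1 ≤ x) (hβ0 : 0 ≤ β) (hs : 1 ≤ s) :
    (1 - β) * x ^ (-s) + β * (x + 1) ^ (-s) ≤ (x + β / (2 * s)) ^ (-s) := by
  have hx0 : 0 < x := by linarith
  have hs0 : 0 < s := by linarith
  set t : ℝ := 1 / x with ht
  have ht0 : 0 < t := by positivity
  have ht1 : t ≤ 1 := by
    rw [ht, div_le_one hx0]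
    exact hx
  have e1 : x + 1 = x * (1 + t) := by
    rw [ht]
    field_simp
  have e2 : x + β / (2 * s) = x * (1 + β * t / (2 * s)) := by
    rw [ht]
    field_simp
  have hu : 0 ≤ β * t / (2 * s) := by positivity
  rw [e1, e2, Real.mul_rpow hx0.le (by linarith), Real.mul_rpow hx0.le (by linarith)]
  have hxs : 0 < x ^ (-s) := by positivity
  -- two facts
  have f1 : (1 + t) ^ (-s) ≤ 1 - t / 2 := by
    have h1 : (1 + t) ^ (-s) ≤ (1 + t) ^ (-1 : ℝ) :=
      Real.rpow_le_rpow_of_exponent_le (by linarith) (by linarith)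
    refine h1.trans ?_
    rw [Real.rpow_neg_one, inv_le_iff_one_le_mul₀ (by linarith)]
    nlinarith
  have f2 := rpow_neg_ge hs hu
  have e3 : s * (β * t / (2 * s)) = β * t / 2 := by
    field_simp
  rw [e3] at f2
  have h4 : (1 - β) + β * (1 + t) ^ (-s) ≤ (1 + β * t / (2 * s)) ^ (-s) := by
    have : β * (1 + t) ^ (-s) ≤ β * (1 - t / 2) := mul_le_mul_of_nonneg_left f1 hβ0
    nlinarith
  calc (1 - β) * x ^ (-s) + β * (x ^ (-s) * (1 + t) ^ (-s))
      = x ^ (-s) * ((1 - β) + β * (1 + t) ^ (-s)) := by ring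
    _ ≤ _ := mul_le_mul_of_nonneg_left h4 hxs.le

variable {w Δ}

/-- The key splitting inequality. -/
lemma stepOp_le {β : ℝ} (hβ0 : 0 ≤ β) (hβ1 : β ≤ 1) (hw : ∑' π, w π = 1) (c : (ι → Bool) → Blk)
    (hcΔ : ∀ σ, Δ (c σ) = ind σ)
    (hcw : ∀ σ, ENNReal.ofReal β / (2 : ℝ≥0∞) ^ Fintype.card ι ≤ w (c σ))
    (g : (ι → ℤ) → ℝ≥0∞) (M₁ : ℝ≥0∞) (hg : ∀ u, g u ≤ M₁) (u : ι → ℤ) :
    stepOp w Δ g u ≤ ENNReal.ofReal (1 - β) * M₁ + ENNReal.ofReal β * avg g u := by
  classical
  have hinj : Function.Injective c := by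
    intro σ τ h
    apply ind_injective
    rw [← hcΔ, ← hcΔ, h]
  set T : Finset Blk := Finset.univ.image c with hT
  set D : ℝ≥0∞ := (2 : ℝ≥0∞) ^ Fintype.card ι with hD
  have hD0 : D ≠ 0 := by
    rw [hD]
    positivity
  have hDt : D ≠ ⊤ := by
    rw [hD]
    exact ENNReal.pow_ne_top (by norm_num)
  set b : ℝ≥0∞ := ENNReal.ofReal β / D with hb
  let cw : Blk → ℝ≥0∞ := fun π => if π ∈ T then b else 0
  let w' : Blk → ℝ≥0∞ := fun π => w π - cw π
  have hle : ∀ π, cw π ≤ w π := by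
    intro π
    simp only [cw]
    split_ifs with hπ
    · obtain ⟨σ, _, rfl⟩ := Finset.mem_image.mp hπ
      exact hcw σ
    · exact zero_le
  have hsplit : ∀ π, w π = w' π + cw π := fun π => (tsub_add_cancel_of_le (hle π)).symm
  have hsumT : ∀ F : Blk → ℝ≥0∞, ∑' π, cw π * F π = b * ∑ σ, F (c σ) := by
    intro F
    have : ∀ π, cw π * F π = if π ∈ T then b * F π else 0 := by
      intro π
      simp only [cw]
      split_ifs <;> simp
    simp_rw [this]
    rw [tsum_eq_sum (s := T) (fun π hπ => if_neg hπ), Finset.sum_congr rfl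
      (fun π hπ => if_pos hπ), hT, ← Finset.mul_sum, Finset.sum_image (fun a _ b _ h => hinj h)]
  have h4b : D * b = ENNReal.ofReal β := by
    rw [hb]
    exact ENNReal.mul_div_cancel hD0 hDt
  have hcsum : ∑' π, cw π = ENNReal.ofReal β := by
    have := hsumT (fun _ => 1)
    simp only [mul_one] at this
    rw [this, ← h4b, mul_comm]
    congr 1
    simp [hD]
  have hw' : ∑' π, w' π + ENNReal.ofReal β = 1 := by
    rw [← hcsum, ← ENNReal.tsum_add, ← hw]
    exact tsum_congr fun π => (hsplit π).symm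
  have hw'' : ∑' π, w' π = ENNReal.ofReal (1 - β) := by
    have hne : ENNReal.ofReal β ≠ ⊤ := ENNReal.ofReal_ne_top
    have h1β : ENNReal.ofReal (1 - β) + ENNReal.ofReal β = 1 := by
      rw [← ENNReal.ofReal_add (by linarith) hβ0]
      simp
    exact (ENNReal.add_left_inj hne).mp (hw'.trans h1β.symm)
  unfold stepOp
  calc ∑' π, w π * g (u - Δ π)
      = ∑' π, (w' π * g (u - Δ π) + cw π * g (u - Δ π)) := by
        refine tsum_congr fun π => ?_
        conv_lhs => rw [hsplit π]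
        rw [add_mul]
    _ = ∑' π, w' π * g (u - Δ π) + ∑' π, cw π * g (u - Δ π) := ENNReal.tsum_add
    _ ≤ ∑' π, w' π * M₁ + ∑' π, cw π * g (u - Δ π) := by
        gcongr with π
        exact hg _
    _ = ENNReal.ofReal (1 - β) * M₁ + ENNReal.ofReal β * avg g u := by
        rw [ENNReal.tsum_mul_right, hw'', hsumT]
        simp only [hcΔ, avg]
        congr 1
        rw [hb, div_eq_mul_inv, div_eq_mul_inv]
        ring

/-- The smoothing bound for the law of the free chain. -/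
lemma smooth_bound {β : ℝ} (hβ0 : 0 ≤ β) (hβ1 : β ≤ 1) (hs : 1 ≤ sDim ι) (hw : ∑' π, w π = 1)
    (c : (ι → Bool) → Blk) (hcΔ : ∀ σ, Δ (c σ) = ind σ)
    (hcw : ∀ σ, ENNReal.ofReal β / (2 : ℝ≥0∞) ^ Fintype.card ι ≤ w (c σ))
    (i r : ℕ) (u : ι → ℤ) :
    (avg^[r] (dens w Δ i)) u ≤
      ENNReal.ofReal (((r : ℝ) + 1 + β * i / (2 * sDim ι)) ^ (-sDim ι)) := by
  set s := sDim ι with hsdef
  have hs0 : 0 < s := by linarith
  induction i generalizing r u with
  | zero =>
    have := iterate_avg_del_le (ι := ι) r u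
    simpa [dens] using this
  | succ i ih =>
    have h1 : (avg^[r] (dens w Δ (i + 1))) = stepOp w Δ (avg^[r] (dens w Δ i)) :=
      iterate_avg_stepOp w Δ r (dens w Δ i)
    rw [h1]
    set g := avg^[r] (dens w Δ i) with hg
    set x : ℝ := (r : ℝ) + 1 + β * i / (2 * s) with hx
    have hx1 : 1 ≤ x := by
      have : 0 ≤ β * i / (2 * s) := by positivity
      have hr : (0 : ℝ) ≤ r := by positivity
      rw [hx]; linarith
    have h2 := stepOp_le hβ0 hβ1 hw c hcΔ hcw g (ENNReal.ofReal (x ^ (-s))) (fun v => ih r v) u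
    have h3 : avg g u ≤ ENNReal.ofReal ((x + 1) ^ (-s)) := by
      have h4 : avg g = avg^[r + 1] (dens w Δ i) := by
        rw [Function.iterate_succ_apply']
      rw [h4]
      have h5 := ih (r + 1) u
      have h6 : (((r + 1 : ℕ) : ℝ) + 1 + β * i / (2 * s)) = x + 1 := by
        rw [hx]; push_cast; ring
      rwa [h6] at h5
    have h7 := real_ineq hx1 hβ0 hs
    have h8 : ((r : ℝ) + 1 + β * ((i + 1 : ℕ) : ℝ) / (2 * s)) = x + β / (2 * s) := by
      rw [hx]
      push_cast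
      ring
    rw [h8]
    have hx0 : 0 < x := by linarith
    have h1β : 0 ≤ 1 - β := by linarith
    calc stepOp w Δ g u ≤ ENNReal.ofReal (1 - β) * ENNReal.ofReal (x ^ (-s)) +
          ENNReal.ofReal β * avg g u := h2
      _ ≤ ENNReal.ofReal (1 - β) * ENNReal.ofReal (x ^ (-s)) +
          ENNReal.ofReal β * ENNReal.ofReal ((x + 1) ^ (-s)) := by gcongr
      _ = ENNReal.ofReal ((1 - β) * x ^ (-s) + β * (x + 1) ^ (-s)) := by
          rw [← ENNReal.ofReal_mul h1β, ← ENNReal.ofReal_mul hβ0,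
            ENNReal.ofReal_add (by positivity) (by positivity)]
      _ ≤ _ := ENNReal.ofReal_le_ofReal h7

/-- The density bound for the free chain. -/
lemma dens_le {β : ℝ} (hβ0 : 0 ≤ β) (hβ1 : β ≤ 1) (hs : 1 ≤ sDim ι) (hw : ∑' π, w π = 1)
    (c : (ι → Bool) → Blk) (hcΔ : ∀ σ, Δ (c σ) = ind σ)
    (hcw : ∀ σ, ENNReal.ofReal β / (2 : ℝ≥0∞) ^ Fintype.card ι ≤ w (c σ))
    (i : ℕ) (u : ι → ℤ) :
    dens w Δ i u ≤ ENNReal.ofReal ((1 + β * i / (2 * sDim ι)) ^ (-sDim ι)) := by
  have h := smooth_bound hβ0 hβ1 hs hw c hcΔ hcw i 0 u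
  simpa using h

end Op

/-- The fractional powers of the density bound are summable. -/
lemma tsum_rpow_dens_ne_top {β s γ : ℝ} (hβ0 : 0 < β) (hβ1 : β ≤ 1) (hs : 1 ≤ s) (hγ : 0 < γ)
    (hsγ : 1 < s * γ) :
    ∑' i : ℕ, (ENNReal.ofReal ((1 + β * i / (2 * s)) ^ (-s))) ^ γ ≠ ⊤ := by
  have hs0 : 0 < s := by linarith
  have hcpos : 0 < β / (2 * s) := by positivity
  have hc1 : β / (2 * s) ≤ 1 := by
    rw [div_le_one (by positivity)]
    linarith
  have hpos : ∀ i : ℕ, 0 < 1 + β * i / (2 * s) := fun i => by positivity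
  set p : ℝ := s * γ with hp
  have hp0 : 0 < p := by positivity
  have h1 : ∀ i : ℕ, (ENNReal.ofReal ((1 + β * i / (2 * s)) ^ (-s))) ^ γ =
      ENNReal.ofReal ((1 + β * i / (2 * s)) ^ (-p)) := by
    intro i
    rw [ENNReal.ofReal_rpow_of_pos (Real.rpow_pos_of_pos (hpos i) _), ← Real.rpow_mul (hpos i).le]
    congr 2
    rw [hp]
    ring
  simp_rw [h1]
  have hsum : Summable (fun i : ℕ => (β / (2 * s)) ^ (-p) * (((i + 1 : ℕ) : ℝ)) ^ (-p)) := by
    have h2 : Summable (fun n : ℕ => (n : ℝ) ^ (-p)) := Real.summable_nat_rpow.mpr (by linarith)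
    exact ((summable_nat_add_iff 1).mpr h2).mul_left _
  refine ne_top_of_le_ne_top hsum.tsum_ofReal_ne_top (ENNReal.tsum_le_tsum fun i => ?_)
  refine ENNReal.ofReal_le_ofReal ?_
  rw [← Real.mul_rpow hcpos.le (by positivity)]
  refine Real.rpow_le_rpow_of_nonpos (by positivity) ?_ (by linarith)
  push_cast
  have hi : (0 : ℝ) ≤ i := by positivity
  have e : β / (2 * s) * ((i : ℝ) + 1) = β * i / (2 * s) + β / (2 * s) := by ring
  rw [e]
  linarith

end Vale.Agent.Lib.P147.Poly
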