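import Vale.Agent.Lib.P147.Poly.Prof
import Vale.Agent.Lib.P147.Poly.Dens

/-!
# The killed chain on `ℤ^ι`: survival at a far away site

If the free chain has a density that decays faster than `k^{-1/γ}` and the number of obstacles of a
block has a finite moment of order `γ`, then the chain started at a far away site survives forever
with probability at least one half.
-/

open scoped ENNReal
open Filter Topology

set_option linter.unusedSectionVars false

namespace Vale.Agent.Lib.P147.Poly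

variable {ι : Type*} [Fintype ι] [DecidableEq ι] {Blk : Type*}
  {w : Blk → ℝ≥0∞} {Δ : Blk → ι → ℤ} {O : Blk → Finset (ι → ℤ)}

/-- The expected number of obstacle hits at the time `k` from the site `v`. -/
noncomputable def hitM (w : Blk → ℝ≥0∞) (Δ : Blk → ι → ℤ) (O : Blk → Finset (ι → ℤ)) (k : ℕ)
    (v : ι → ℤ) : ℝ≥0∞ :=
  ∑' π, w π * ∑ u ∈ O π, dens w Δ k (u - v)

lemma sum_del (S : Finset (ι → ℤ)) (v : ι → ℤ) [Decidable (v ∈ S)] :
    ∑ u ∈ S, del (u - v) = if v ∈ S then 1 else 0 := by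
  classical
  have h1 : ∀ u ∈ S, del (u - v) = if u = v then (1 : ℝ≥0∞) else 0 := by
    intro u _
    simp only [del, sub_eq_zero]
  rw [Finset.sum_congr rfl h1, Finset.sum_ite_eq' S v]
  congr

lemma hitM_zero (v : ι → ℤ) [∀ π, Decidable (v ∈ O π)] :
    hitM w Δ O 0 v = ∑' π, w π * (if v ∈ O π then 1 else 0) := by
  unfold hitM
  refine tsum_congr fun π => ?_
  congr 1
  exact sum_del _ _

lemma hitM_succ (k : ℕ) (v : ι → ℤ) :
    hitM w Δ O (k + 1) v = ∑' ρ, w ρ * hitM w Δ O k (v + Δ ρ) := by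
  unfold hitM
  simp_rw [← ENNReal.tsum_mul_left]
  rw [ENNReal.tsum_comm]
  refine tsum_congr fun π => ?_
  have h1 : ∑ u ∈ O π, dens w Δ (k + 1) (u - v) =
      ∑' ρ, w ρ * ∑ u ∈ O π, dens w Δ k (u - (v + Δ ρ)) := by
    show ∑ u ∈ O π, ∑' ρ, w ρ * dens w Δ k (u - v - Δ ρ) = _
    rw [← Summable.tsum_finsetSum (fun _ _ => ENNReal.summable)]
    refine tsum_congr fun ρ => ?_
    rw [Finset.mul_sum]
    refine Finset.sum_congr rfl fun u _ => ?_
    rw [sub_add_eq_sub_sub]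
  rw [h1, ← ENNReal.tsum_mul_left]
  refine tsum_congr fun ρ => ?_
  ring

/-- **Survival from the expected number of hits.** -/
lemma one_le_surv_add (hw : ∑' π, w π = 1) (n : ℕ) (v : ι → ℤ) :
    1 ≤ surv w Δ O n v + ∑ k ∈ Finset.range n, hitM w Δ O k v := by
  classical
  induction n generalizing v with
  | zero => simp [surv_zero]
  | succ n ih =>
    have h1 : (1 : ℝ≥0∞) ≤ ∑' ρ, w ρ * surv w Δ O n (v + Δ ρ) +
        ∑' ρ, w ρ * ∑ k ∈ Finset.range n, hitM w Δ O k (v + Δ ρ) := by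
      calc (1 : ℝ≥0∞) = ∑' ρ, w ρ * 1 := by simp [hw]
        _ ≤ ∑' ρ, w ρ * (surv w Δ O n (v + Δ ρ) +
              ∑ k ∈ Finset.range n, hitM w Δ O k (v + Δ ρ)) :=
            ENNReal.tsum_le_tsum fun ρ => mul_le_mul' le_rfl (ih _)
        _ = _ := by
            rw [← ENNReal.tsum_add]
            refine tsum_congr fun ρ => ?_
            rw [mul_add]
    have h2 : ∑' ρ, w ρ * surv w Δ O n (v + Δ ρ) ≤ surv w Δ O (n + 1) v + hitM w Δ O 0 v := by
      rw [hitM_zero, surv_succ, ← ENNReal.tsum_add]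
      refine ENNReal.tsum_le_tsum fun ρ => ?_
      rw [← mul_add]
      gcongr
      by_cases hv : v ∈ O ρ
      · simp only [hv, if_true, zero_add]
        exact surv_le_one _ _ hw _ _
      · simp [hv]
    have h3 : ∑' ρ, w ρ * ∑ k ∈ Finset.range n, hitM w Δ O k (v + Δ ρ) =
        ∑ k ∈ Finset.range n, hitM w Δ O (k + 1) v := by
      simp_rw [hitM_succ, Finset.mul_sum]
      exact Summable.tsum_finsetSum (fun _ _ => ENNReal.summable)
    rw [h3] at h1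
    calc (1 : ℝ≥0∞) ≤ _ := h1
      _ ≤ (surv w Δ O (n + 1) v + hitM w Δ O 0 v) + ∑ k ∈ Finset.range n, hitM w Δ O (k + 1) v := by
          gcongr
      _ = _ := by
          rw [Finset.sum_range_succ', add_assoc, add_comm (hitM w Δ O 0 v)]

lemma tsum_dens_le_one (hw : ∑' π, w π = 1) (k : ℕ) : ∑' z, dens w Δ k z ≤ 1 := by
  classical
  induction k with
  | zero =>
    have : ∑' z : ι → ℤ, del z = 1 := by
      unfold del
      rw [tsum_ite_eq]
    exact this.le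
  | succ k ih =>
    show ∑' z, ∑' π, w π * dens w Δ k (z - Δ π) ≤ 1
    rw [ENNReal.tsum_comm]
    calc ∑' π, ∑' z, w π * dens w Δ k (z - Δ π) = ∑' π, w π * ∑' z, dens w Δ k z := by
          refine tsum_congr fun π => ?_
          rw [ENNReal.tsum_mul_left]
          congr 1
          exact (Equiv.subRight (Δ π)).tsum_eq (dens w Δ k)
      _ ≤ ∑' π, w π * 1 := ENNReal.tsum_le_tsum fun π => mul_le_mul' le_rfl ih
      _ = 1 := by simp [hw]

lemma sum_dens_sub_le_one (hw : ∑' π, w π = 1) (k : ℕ) (S : Finset (ι → ℤ)) (v : ι → ℤ) :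
    ∑ u ∈ S, dens w Δ k (u - v) ≤ 1 := by
  calc ∑ u ∈ S, dens w Δ k (u - v) ≤ ∑' u, dens w Δ k (u - v) := ENNReal.sum_le_tsum S
    _ = ∑' z, dens w Δ k z := (Equiv.subRight v).tsum_eq (dens w Δ k)
    _ ≤ 1 := tsum_dens_le_one hw k

/-- The elementary inequality behind the fractional moment. -/
lemma le_rpow_mul_rpow {x n a : ℝ≥0∞} {γ : ℝ} (hγ : 0 < γ) (hγ1 : γ ≤ 1) (h1 : x ≤ 1)
    (h2 : x ≤ n * a) : x ≤ n ^ γ * a ^ γ := by
  calc x = x ^ (1 : ℝ) := (ENNReal.rpow_one x).symm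
    _ ≤ x ^ γ := ENNReal.rpow_le_rpow_of_exponent_ge h1 hγ1
    _ ≤ (n * a) ^ γ := ENNReal.rpow_le_rpow h2 hγ.le
    _ = _ := ENNReal.mul_rpow_of_nonneg _ _ hγ.le

/-- The fractional moment of the number of obstacles of a block. -/
noncomputable def momE (w : Blk → ℝ≥0∞) (O : Blk → Finset (ι → ℤ)) (γ : ℝ) : ℝ≥0∞ :=
  ∑' π, w π * ((O π).card : ℝ≥0∞) ^ γ

/-- Uniform bound for the expected number of hits from the density bound. -/
lemma hitM_le (hw : ∑' π, w π = 1) {γ : ℝ} (hγ : 0 < γ) (hγ1 : γ ≤ 1) {k : ℕ} {A : ℝ≥0∞}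
    (hA : ∀ z, dens w Δ k z ≤ A) (v : ι → ℤ) : hitM w Δ O k v ≤ momE w O γ * A ^ γ := by
  unfold hitM momE
  rw [← ENNReal.tsum_mul_right]
  refine ENNReal.tsum_le_tsum fun π => ?_
  rw [mul_assoc]
  gcongr
  refine le_rpow_mul_rpow hγ hγ1 (sum_dens_sub_le_one hw k _ _) ?_
  calc ∑ u ∈ O π, dens w Δ k (u - v) ≤ ∑ _u ∈ O π, A := Finset.sum_le_sum fun u _ => hA _
    _ = _ := by rw [Finset.sum_const, nsmul_eq_mul]

/-- The average of the expected numbers of hits along a sequence of distinct sites. -/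
lemma sum_hitM_le (hw : ∑' π, w π = 1) {γ : ℝ} (hγ : 0 < γ) (hγ1 : γ ≤ 1) (k M : ℕ) (hM : 1 ≤ M)
    (v : ℕ → ι → ℤ) (hv : Function.Injective v) :
    ∑ m ∈ Finset.range M, hitM w Δ O k (v m) ≤
      (M : ℝ≥0∞) * (momE w O γ * ((M : ℝ≥0∞)⁻¹) ^ γ) := by
  have hM0 : (M : ℝ≥0∞) ≠ 0 := by
    have : M ≠ 0 := by omega
    exact_mod_cast this
  have hMt : (M : ℝ≥0∞) ≠ ⊤ := by simp
  unfold hitM momE
  rw [← Summable.tsum_finsetSum (fun _ _ => ENNReal.summable), ← ENNReal.tsum_mul_right,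
    ← ENNReal.tsum_mul_left]
  refine ENNReal.tsum_le_tsum fun π => ?_
  rw [← Finset.mul_sum]
  set X := ∑ m ∈ Finset.range M, ∑ u ∈ O π, dens w Δ k (u - v m) with hX
  have h1 : (M : ℝ≥0∞)⁻¹ * X ≤ 1 := by
    have h2 : X ≤ (M : ℝ≥0∞) := by
      calc X ≤ ∑ _m ∈ Finset.range M, (1 : ℝ≥0∞) :=
            Finset.sum_le_sum fun m _ => sum_dens_sub_le_one hw k _ _
        _ = _ := by simp
    calc (M : ℝ≥0∞)⁻¹ * X ≤ (M : ℝ≥0∞)⁻¹ * (M : ℝ≥0∞) := by gcongr
      _ = 1 := ENNReal.inv_mul_cancel hM0 hMt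
  have h2 : (M : ℝ≥0∞)⁻¹ * X ≤ ((O π).card : ℝ≥0∞) * (M : ℝ≥0∞)⁻¹ := by
    rw [mul_comm]
    gcongr
    rw [hX, Finset.sum_comm]
    calc ∑ u ∈ O π, ∑ m ∈ Finset.range M, dens w Δ k (u - v m)
        ≤ ∑ _u ∈ O π, (1 : ℝ≥0∞) := by
          refine Finset.sum_le_sum fun u _ => ?_
          calc ∑ m ∈ Finset.range M, dens w Δ k (u - v m)
              ≤ ∑' m, dens w Δ k (u - v m) := ENNReal.sum_le_tsum _
            _ ≤ ∑' z, dens w Δ k z :=
                ENNReal.tsum_comp_le_tsum_of_injective (f := fun m => u - v m)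
                  (fun a b hab => hv (sub_right_injective hab)) _
            _ ≤ 1 := tsum_dens_le_one hw k
      _ = _ := by simp
  have h3 := le_rpow_mul_rpow hγ hγ1 h1 h2
  have h4 : X = (M : ℝ≥0∞) * ((M : ℝ≥0∞)⁻¹ * X) := by
    rw [← mul_assoc, ENNReal.mul_inv_cancel hM0 hMt, one_mul]
  calc w π * X = w π * ((M : ℝ≥0∞) * ((M : ℝ≥0∞)⁻¹ * X)) := by rw [← h4]
    _ ≤ w π * ((M : ℝ≥0∞) * (((O π).card : ℝ≥0∞) ^ γ * ((M : ℝ≥0∞)⁻¹) ^ γ)) := by gcongr
    _ = _ := by ring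

/-- **A far away site from which the chain survives.** -/
theorem exists_far_surv (hw : ∑' π, w π = 1) {γ : ℝ} (hγ : 0 < γ) (hγ1 : γ ≤ 1)
    (hE : momE w O γ ≠ ⊤) {A : ℕ → ℝ≥0∞} (hA : ∀ k z, dens w Δ k z ≤ A k)
    (hAs : ∑' k, A k ^ γ ≠ ⊤) (v : ℕ → ι → ℤ) (hv : Function.Injective v) :
    ∃ m, ∀ n, ENNReal.ofReal (1 / 2) ≤ surv w Δ O n (v m) := by
  classical
  set q : ℝ≥0∞ := ENNReal.ofReal (1 / 4) with hq
  have hq0 : 0 < q := by
    rw [hq]
    simp
  have hqq : q + q = ENNReal.ofReal (1 / 2) := by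
    rw [hq, ← ENNReal.ofReal_add (by norm_num) (by norm_num)]
    norm_num
  have hhh : ENNReal.ofReal (1 / 2) + ENNReal.ofReal (1 / 2) = 1 := by
    rw [← ENNReal.ofReal_add (by norm_num) (by norm_num)]
    norm_num
  -- the large times
  have hf : ∑' k, momE w O γ * A k ^ γ ≠ ⊤ := by
    rw [ENNReal.tsum_mul_left]
    exact ENNReal.mul_ne_top hE hAs
  have htail := ENNReal.tendsto_sum_nat_add (fun k => momE w O γ * A k ^ γ) hf
  obtain ⟨k₀, hk₀⟩ := (htail.eventually (gt_mem_nhds hq0)).exists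
  -- the small times
  have hlim : Tendsto (fun M : ℕ => (k₀ : ℝ≥0∞) * (momE w O γ * ((M : ℝ≥0∞)⁻¹) ^ γ)) atTop (𝓝 0) := by
    have h1 : Tendsto (fun M : ℕ => ((M : ℝ≥0∞)⁻¹) ^ γ) atTop (𝓝 0) := by
      have h2 := (ENNReal.continuous_rpow_const (y := γ)).tendsto 0
      rw [ENNReal.zero_rpow_of_pos hγ] at h2
      exact h2.comp ENNReal.tendsto_inv_nat_nhds_zero
    have h3 := ENNReal.Tendsto.const_mul h1 (Or.inr hE)
    have h4 := ENNReal.Tendsto.const_mul h3 (Or.inr (ENNReal.natCast_ne_top k₀))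
    simpa using h4
  obtain ⟨M, hM, hM1⟩ := ((hlim.eventually (gt_mem_nhds hq0)).and (eventually_ge_atTop 1)).exists
  -- the pigeonhole principle
  have hne : (Finset.range M).Nonempty := ⟨0, Finset.mem_range.mpr (by omega)⟩
  obtain ⟨m, hm, hmin⟩ := Finset.exists_min_image (Finset.range M)
    (fun m => ∑ k ∈ Finset.range k₀, hitM w Δ O k (v m)) hne
  have hM0 : (M : ℝ≥0∞) ≠ 0 := by
    have : M ≠ 0 := by omega
    exact_mod_cast this
  have hsmall : ∑ k ∈ Finset.range k₀, hitM w Δ O k (v m) ≤ q := by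
    have h1 : (M : ℝ≥0∞) * ∑ k ∈ Finset.range k₀, hitM w Δ O k (v m) ≤ (M : ℝ≥0∞) * q := by
      calc (M : ℝ≥0∞) * ∑ k ∈ Finset.range k₀, hitM w Δ O k (v m)
          = ∑ _m' ∈ Finset.range M, ∑ k ∈ Finset.range k₀, hitM w Δ O k (v m) := by
            rw [Finset.sum_const, Finset.card_range, nsmul_eq_mul]
        _ ≤ ∑ m' ∈ Finset.range M, ∑ k ∈ Finset.range k₀, hitM w Δ O k (v m') :=
            Finset.sum_le_sum hmin
        _ = ∑ k ∈ Finset.range k₀, ∑ m' ∈ Finset.range M, hitM w Δ O k (v m') := Finset.sum_comm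
        _ ≤ ∑ _k ∈ Finset.range k₀, (M : ℝ≥0∞) * (momE w O γ * ((M : ℝ≥0∞)⁻¹) ^ γ) :=
            Finset.sum_le_sum fun k _ => sum_hitM_le hw hγ hγ1 k M hM1 v hv
        _ = (M : ℝ≥0∞) * ((k₀ : ℝ≥0∞) * (momE w O γ * ((M : ℝ≥0∞)⁻¹) ^ γ)) := by
            rw [Finset.sum_const, Finset.card_range, nsmul_eq_mul]
            ring
        _ ≤ _ := by
            gcongr
    exact (ENNReal.mul_le_mul_iff_right hM0 (by simp)).mp h1
  refine ⟨m, fun n => ?_⟩
  have hU : ∑ k ∈ Finset.range n, hitM w Δ O k (v m) ≤ ENNReal.ofReal (1 / 2) := by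
    calc ∑ k ∈ Finset.range n, hitM w Δ O k (v m)
        ≤ ∑ k ∈ Finset.range (k₀ + n), hitM w Δ O k (v m) :=
          Finset.sum_le_sum_of_subset (Finset.range_subset_range.mpr (by omega))
      _ = ∑ k ∈ Finset.range k₀, hitM w Δ O k (v m) +
          ∑ k ∈ Finset.range n, hitM w Δ O (k₀ + k) (v m) := Finset.sum_range_add _ _ _
      _ ≤ q + q := by
          refine add_le_add hsmall ?_
          calc ∑ k ∈ Finset.range n, hitM w Δ O (k₀ + k) (v m)
              ≤ ∑ k ∈ Finset.range n, momE w O γ * A (k + k₀) ^ γ :=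
                Finset.sum_le_sum fun k _ => by
                  rw [add_comm k₀ k]
                  exact hitM_le hw hγ hγ1 (hA _) _
            _ ≤ ∑' k, momE w O γ * A (k + k₀) ^ γ := ENNReal.sum_le_tsum _
            _ ≤ q := hk₀.le
      _ = _ := hqq
  have h1 := one_le_surv_add (O := O) (Δ := Δ) hw n (v m)
  have h2 : ENNReal.ofReal (1 / 2) + ENNReal.ofReal (1 / 2) ≤
      surv w Δ O n (v m) + ENNReal.ofReal (1 / 2) := by
    rw [hhh]
    exact h1.trans (by gcongr)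
  exact (ENNReal.add_le_add_iff_right ENNReal.ofReal_ne_top).mp h2

/-- Survival moves along the force block. -/
lemma surv_force {e : ι → ℤ} {π₀ : Blk} (hΔ : Δ π₀ = e) (hO : ∀ m : ℕ, (m + 1) • e ∉ O π₀)
    (m n : ℕ) : w π₀ ^ m * surv w Δ O n ((m + 1) • e) ≤ surv w Δ O (n + m) e := by
  classical
  induction m generalizing n with
  | zero => simp
  | succ m ih =>
    have h1 : w π₀ * surv w Δ O n ((m + 1 + 1) • e) ≤ surv w Δ O (n + 1) ((m + 1) • e) := by
      rw [surv_succ]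
      have := ENNReal.le_tsum (f := fun π' => w π' * (if (m + 1) • e ∈ O π' then 0 else
        surv w Δ O n ((m + 1) • e + Δ π'))) π₀
      simp only [hO m, if_false, hΔ] at this
      have e2 : (m + 1) • e + e = (m + 1 + 1) • e := by
        rw [add_smul (m + 1) 1 e, one_smul]
      rw [e2] at this
      exact this
    have e3 : n + (m + 1) = (n + 1) + m := by ring
    rw [e3, pow_succ, mul_assoc]
    exact (mul_le_mul' le_rfl h1).trans (ih (n + 1))

/-- **Main theorem on the chain.** -/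
theorem surv_lower {β γ : ℝ} (hβ0 : 0 < β) (hβ1 : β ≤ 1) (hs : 1 ≤ sDim ι) (hw : ∑' π, w π = 1)
    (c : (ι → Bool) → Blk) (hcΔ : ∀ σ, Δ (c σ) = ind σ)
    (hcw : ∀ σ, ENNReal.ofReal β / (2 : ℝ≥0∞) ^ Fintype.card ι ≤ w (c σ))
    (hγ : 0 < γ) (hγ1 : γ ≤ 1) (hsγ : 1 < sDim ι * γ) (hE : momE w O γ ≠ ⊤)
    {e : ι → ℤ} {j₀ : ι} (he : e j₀ = 1) {π₀ : Blk} (hΔ : Δ π₀ = e) (hw₀ : w π₀ ≠ 0)
    (hO : ∀ u ∈ O π₀, u = 0 ∨ u = -e) :
    ∃ c₀ : ℝ≥0∞, c₀ ≠ 0 ∧ ∃ m₀ : ℕ, ∀ n, m₀ ≤ n → c₀ ≤ surv w Δ O n e := by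
  have hcoord : ∀ m : ℕ, ((m + 1) • e) j₀ = (m : ℤ) + 1 := by
    intro m
    simp [he]
  have hv : Function.Injective (fun m : ℕ => (m + 1) • e) := by
    intro a b hab
    have := congrFun hab j₀
    simp only [hcoord] at this
    omega
  obtain ⟨m, hm⟩ := exists_far_surv (O := O) hw hγ hγ1 hE (dens_le hβ0.le hβ1 hs hw c hcΔ hcw)
    (tsum_rpow_dens_ne_top hβ0 hβ1 hs hγ hsγ) _ hv
  have hnot : ∀ m : ℕ, (m + 1) • e ∉ O π₀ := by
    intro m hmem
    have h1 := hcoord m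
    rcases hO _ hmem with h0 | h0
    · rw [h0] at h1
      simp only [Pi.zero_apply] at h1
      omega
    · rw [h0] at h1
      simp only [Pi.neg_apply, he] at h1
      omega
  refine ⟨w π₀ ^ m * ENNReal.ofReal (1 / 2), mul_ne_zero (pow_ne_zero _ hw₀) (by simp), m,
    fun n hn => ?_⟩
  obtain ⟨n', rfl⟩ : ∃ n', n = n' + m := ⟨n - m, by omega⟩
  exact (mul_le_mul' le_rfl (hm n')).trans (surv_force hΔ hnot m n')

end Vale.Agent.Lib.P147.Poly
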