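import Vale.Agent.Lib.P147.Poly.Prof
import Vale.Agent.Lib.P147.ProbHazard

/-!
# The profiles of words with a general transverse group, and the hazard inequality
-/

open MeasureTheory ProbabilityTheory Filter Set
open scoped ENNReal

set_option linter.unusedSectionVars false

namespace Vale.Agent.Lib.P147.Poly

variable {d : ℕ} {G : Type*} [AddCommGroup G] [DecidableEq G]

section Prof

variable {L : Site d →+ ℤ}

/-- The profile of a word: level and transverse position of each departure point. -/
def profB (L : Site d →+ ℤ) (proj : Site d →+ G) : Prof G (wordM L) where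
  J y := (posL 0 y.1).map (fun z => ((L z).toNat, proj z))
  δ y := proj (endP 0 y.1)
  J_e := rfl
  J_op a b := by
    obtain ⟨m₂, h₂⟩ := b.2
    obtain ⟨m₁, h₁⟩ := a.2
    rw [wordM_op_val, posL_append, List.map_append, posL_eq_map _ b.1, List.map_map, List.map_map]
    congr 1
    refine List.map_congr_left fun z hz => ?_
    have h3 := (h₂.1 z hz).1
    simp only [Function.comp, wordM_lev, map_add]
    have h4 : L (endP 0 a.1) = m₁ := h₁.2
    rw [h4]
    ext <;> simp <;> omega
  J_lt a s hs := by
    obtain ⟨m, hm⟩ := a.2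
    obtain ⟨z, hz, rfl⟩ := List.mem_map.mp hs
    have := hm.1 z hz
    simp only [wordM_lev, hm.lev]
    omega

/-- The profile of a word has at most as many entries as the word has departure points. -/
lemma profB_len (proj : Site d →+ G) (x : XW L) :
    (profB L proj).len x ≤ (posL 0 x.1).toFinset.card := by
  classical
  unfold Prof.len
  have : ((profB L proj).J x).toFinset =
      (posL 0 x.1).toFinset.image (fun z => ((L z).toNat, proj z)) := by
    ext s
    simp [profB]
  rw [this]
  exact Finset.card_image_le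

/-- The profile of a word read from its end point. -/
def profA (L : Site d →+ ℤ) (proj : Site d →+ G) : Prof G (wordM L).rev where
  J x := ((posL 0 x.1).reverse).map
    (fun z => ((L (endP 0 x.1) - L z - 1).toNat, proj (z - endP 0 x.1)))
  δ x := - proj (endP 0 x.1)
  J_e := rfl
  J_op a b := by
    obtain ⟨m₂, h₂⟩ := b.2
    obtain ⟨m₁, h₁⟩ := a.2
    have hend : endP 0 ((wordM L).rev.op a b).1 = endP 0 a.1 + endP 0 b.1 := by
      show endP 0 (b.1 ++ a.1) = _
      rw [endP_append, endP_eq_add]
    have hval : ((wordM L).rev.op a b).1 = b.1 ++ a.1 := rfl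
    rw [hend, hval, posL_append, List.reverse_append, List.map_append, posL_eq_map _ a.1,
      ← List.map_reverse, List.map_map, List.map_map]
    congr 1
    · refine List.map_congr_left fun z _ => ?_
      have e2 : z + endP 0 b.1 - (endP 0 a.1 + endP 0 b.1) = z - endP 0 a.1 := by abel
      have e1 : L (endP 0 a.1 + endP 0 b.1) - L (z + endP 0 b.1) - 1 =
          L (endP 0 a.1) - L z - 1 := by
        rw [map_add, map_add]
        ring
      simp only [Function.comp, e1, e2]
    · refine List.map_congr_left fun z hz => ?_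
      have hz' : z ∈ posL 0 b.1 := List.mem_reverse.mp hz
      have h3 := (h₂.1 z hz').2
      have h4 : L (endP 0 a.1) = m₁ := h₁.2
      have h5 : L (endP 0 b.1) = m₂ := h₂.2
      have h6 : (wordM L).rev.lev a = m₁ := h₁.lev
      refine Prod.ext ?_ ?_
      · show (L (endP 0 a.1 + endP 0 b.1) - L z - 1).toNat =
          (L (endP 0 b.1) - L z - 1).toNat + (wordM L).rev.lev a
        rw [h6, map_add, h4, h5]
        omega
      · show proj (z - (endP 0 a.1 + endP 0 b.1)) = proj (z - endP 0 b.1) + - proj (endP 0 a.1)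
        simp only [map_sub, map_add]
        abel
  J_lt a s hs := by
    obtain ⟨m, hm⟩ := a.2
    obtain ⟨z, hz, rfl⟩ := List.mem_map.mp hs
    have hz' : z ∈ posL 0 a.1 := List.mem_reverse.mp hz
    have h3 := hm.1 z hz'
    have h6 : (wordM L).rev.lev a = m := hm.lev
    rw [h6, hm.2]
    simp only
    omega

/-- The reversed profile of a word has at most as many entries as the word has departure
points. -/
lemma profA_len (proj : Site d →+ G) (x : XW L) :
    (profA L proj).len x ≤ (posL 0 x.1).toFinset.card := by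
  classical
  unfold Prof.len
  have : ((profA L proj).J x).toFinset =
      (posL 0 x.1).toFinset.image
        (fun z => ((L (endP 0 x.1) - L z - 1).toNat, proj (z - endP 0 x.1))) := by
    ext s
    simp [profA]
  rw [this]
  exact Finset.card_image_le

end Prof

section Hazard

variable {i₀ : Fin d} {μ : Measure (Row d)} [IsProbabilityMeasure μ]
variable {L : Site d →+ ℤ} {proj : Site d →+ G} {e1 f1 : Step d}
variable (hL1 : L (stepVec e1) = 0) (hLf : L (stepVec f1) = -1)
  (hpf : proj (stepVec f1) = 0)

include hL1 hLf hpf in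
/-- If the two excursions overlap, then the base point is an obstacle. -/
lemma overlap_mem (g : RM.PairT (wordM L).rev (wordM (-L))) {v : Site d}
    (hx : v ∈ posL 0 g.1.1.1) (hy : v ∈ posL (endP (endP 0 g.1.1.1) [e1, f1]) g.1.2.1) :
    proj (stepVec e1) ∈ pairO (profA L proj) (profB (-L) proj) g := by
  rw [mem_pairO]
  set E := endP 0 g.1.1.1 with hE
  have hYs : endP E [e1, f1] = E + stepVec e1 + stepVec f1 := rfl
  rw [mem_posL_iff] at hy
  set z' := v - endP E [e1, f1] with hz'
  obtain ⟨m₁, h₁⟩ := g.1.1.2
  refine ⟨(L E - L v - 1).toNat, proj (v - E), proj z', ?_, ?_, ?_⟩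
  · refine List.mem_map.mpr ⟨v, List.mem_reverse.mpr hx, rfl⟩
  · refine List.mem_map.mpr ⟨z', hy, ?_⟩
    refine Prod.ext ?_ rfl
    simp only [hz', hYs, AddMonoidHom.neg_apply, map_sub, map_add, hL1, hLf]
    congr 1
    ring
  · rw [hz', hYs]
    simp only [map_sub, map_add, hpf]
    abel

include hL1 hLf hpf in
lemma disjoint_first (g : RM.PairT (wordM L).rev (wordM (-L)))
    (hg : proj (stepVec e1) ∉ pairO (profA L proj) (profB (-L) proj) g) :
    ∀ v ∈ posL 0 g.1.1.1, v ∉ posL (endP 0 g.1.1.1) ([e1, f1] ++ g.1.2.1) := by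
  intro v hv hv'
  obtain ⟨m, hm⟩ := g.1.1.2
  have h1 := (hm.1 v hv).2
  rw [posL_append, List.mem_append] at hv'
  rcases hv' with hv' | hv'
  · simp only [posL_cons, posL_nil, List.mem_cons, List.not_mem_nil, or_false] at hv'
    rcases hv' with rfl | rfl
    · rw [hm.2] at h1
      omega
    · rw [map_add, hm.2, hL1] at h1
      omega
  · exact hg (overlap_mem hL1 hLf hpf g hv hv')

include hL1 hLf hpf in
/-- The annealed weight of the whole word factorizes when the excursions do not overlap. -/
lemma wt_pathWord (g : RM.PairT (wordM L).rev (wordM (-L)))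
    (hg : proj (stepVec e1) ∉ pairO (profA L proj) (profB (-L) proj) g) :
    wt μ (pathWord e1 f1 g.1.1.1 g.1.2.1) = wt μ g.1.1.1 * (wt μ [e1, f1] * wt μ g.1.2.1) := by
  rw [pathWord, wt_append (disjoint_first hL1 hLf hpf g hg),
    wt_append (disjoint_second hL1 hLf _ g.1.2.2)]

include hL1 hLf hpf in
/-- The probability of the event attached to a pair without overlap. -/
lemma joint_hazEvent (g : RM.PairT (wordM L).rev (wordM (-L)))
    (hg : proj (stepVec e1) ∉ pairO (profA L proj) (profB (-L) proj) g) :
    jointLaw μ unif0 (hazEvent i₀ L e1 f1 g.1.1.1 g.1.2.1) =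
      (wt μ g.1.1.1 * wt μ g.1.2.1) * (wt μ [e1, f1] * jointLaw μ unif0 (DL i₀ (-L))) := by
  have h1 := joint_foll_tail (μ := μ) i₀ (pathWord e1 f1 g.1.1.1 g.1.2.1) (DL i₀ (-L))
    (measurableSet_DL (-L)) {v | 0 ≤ (-L) v} (DL_congr_iff (-L))
    (fun v hv => by
      have h2 := level_pos hL1 hLf g hv
      have h3 := level_end hL1 hLf g
      simp only [Set.mem_ofPred_eq, AddMonoidHom.neg_apply, map_sub, h3]
      omega)
  unfold hazEvent
  rw [h1, wt_pathWord hL1 hLf hpf g hg]
  ring

include hL1 hLf hpf in
/-- **The hazard inequality.** -/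
theorem hazard (i₀ : Fin d) :
    Vbar (profA L proj) (profB (-L) proj) (wtW L μ) (wtW (-L) μ) (proj (stepVec e1)) *
      (wt μ [e1, f1] * jointLaw μ unif0 (DL i₀ (-L))) ≤ 1 := by
  classical
  set c := wt μ [e1, f1] * jointLaw μ unif0 (DL i₀ (-L)) with hc
  set D := proj (stepVec e1) with hD
  let A : RM.PairT (wordM L).rev (wordM (-L)) → Set (Om d) := fun g =>
    if D ∈ pairO (profA L proj) (profB (-L) proj) g then ∅
    else hazEvent i₀ L e1 f1 g.1.1.1 g.1.2.1
  have hAm : ∀ g, MeasurableSet (A g) := by
    intro g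
    by_cases hg : D ∈ pairO (profA L proj) (profB (-L) proj) g
    · simp [A, hg]
    · simp only [A, if_neg hg]
      exact measurableSet_hazEvent _ _
  have hdisj : Pairwise (Function.onFun Disjoint A) := by
    intro g g' hgg
    rw [Function.onFun]
    by_cases hg : D ∈ pairO (profA L proj) (profB (-L) proj) g
    · simp [A, hg]
    · by_cases hg' : D ∈ pairO (profA L proj) (profB (-L) proj) g'
      · simp [A, hg']
      · simp only [A, if_neg hg, if_neg hg']
        exact hazEvent_disjoint hL1 hLf hgg
  have h1 := tsum_meas_le_meas_iUnion_of_disjoint (jointLaw (V := Site d) μ unif0) hAm hdisj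
  have h2 : Vbar (profA L proj) (profB (-L) proj) (wtW L μ) (wtW (-L) μ) D * c =
      ∑' g, jointLaw (V := Site d) μ unif0 (A g) := by
    unfold Vbar
    rw [← ENNReal.tsum_mul_right]
    refine tsum_congr fun g => ?_
    by_cases hg : D ∈ pairO (profA L proj) (profB (-L) proj) g
    · simp [A, hg]
    · simp only [A, if_neg hg, mul_one]
      rw [joint_hazEvent hL1 hLf hpf g hg]
      rfl
  rw [h2]
  exact h1.trans prob_le_one

end Hazard

end Vale.Agent.Lib.P147.Poly
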