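import Vale.Agent.Lib.P147.Poly.Trunc

/-!
# Renewal monoids: fractional moment of the number of obstacles of a pair block
-/

open scoped ENNReal
open Filter Topology

set_option linter.unusedSectionVars false

namespace Vale.Agent.Lib.P147.Poly

open RM

section Moment

variable {X : Type*} {M : RM X} {ω : X → ℝ≥0∞}

/-- The pointwise dyadic bound for a fractional power. -/
lemma rpow_le_dyadic {γ : ℝ} (hγ : 0 ≤ γ) (R : ℕ → ℕ) (J₂ n : ℕ) (l : ℕ) (hn : n ≤ R (J₂ + l)) :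
    (n : ℝ≥0∞) ^ γ ≤ (R J₂ : ℝ≥0∞) ^ γ + ∑ j ∈ Finset.range l, (R (J₂ + j + 1) : ℝ≥0∞) ^ γ *
      (if R (J₂ + j) < n then 1 else 0) := by
  induction l with
  | zero =>
    simp only [Finset.range_zero, Finset.sum_empty, add_zero]
    exact ENNReal.rpow_le_rpow (by exact_mod_cast hn) hγ
  | succ l ih =>
    rw [Finset.sum_range_succ]
    by_cases h : n ≤ R (J₂ + l)
    · refine (ih h).trans ?_
      rw [← add_assoc]
      exact le_self_add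
    · rw [if_pos (by omega), mul_one]
      have h1 : (n : ℝ≥0∞) ≤ (R (J₂ + l + 1) : ℝ≥0∞) := by exact_mod_cast hn
      refine le_trans (ENNReal.rpow_le_rpow h1 hγ) ?_
      exact le_add_self.trans le_add_self

/-- The fractional moment from the tails at a sequence of scales. -/
lemma moment_of_tails (hF : M.bmass ω = 1) (C : X → ℕ) {γ : ℝ} (hγ : 0 ≤ γ) (R : ℕ → ℕ) (J₂ : ℕ)
    (hR : ∀ n, ∃ l, n ≤ R (J₂ + l)) :
    ∑' q : M.Blocks, ω q.1 * (C q.1 : ℝ≥0∞) ^ γ ≤ (R J₂ : ℝ≥0∞) ^ γ +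
      ∑' j, (R (J₂ + j + 1) : ℝ≥0∞) ^ γ * tailB M ω C (R (J₂ + j)) := by
  classical
  have hpt : ∀ n : ℕ, (n : ℝ≥0∞) ^ γ ≤ (R J₂ : ℝ≥0∞) ^ γ + ∑' j, (R (J₂ + j + 1) : ℝ≥0∞) ^ γ *
      (if R (J₂ + j) < n then 1 else 0) := by
    intro n
    obtain ⟨l, hl⟩ := hR n
    refine (rpow_le_dyadic hγ R J₂ n l hl).trans ?_
    gcongr
    exact ENNReal.sum_le_tsum _
  calc ∑' q : M.Blocks, ω q.1 * (C q.1 : ℝ≥0∞) ^ γ
      ≤ ∑' q : M.Blocks, ω q.1 * ((R J₂ : ℝ≥0∞) ^ γ + ∑' j, (R (J₂ + j + 1) : ℝ≥0∞) ^ γ *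
          (if R (J₂ + j) < C q.1 then 1 else 0)) :=
        ENNReal.tsum_le_tsum fun q => mul_le_mul' le_rfl (hpt _)
    _ = (∑' q : M.Blocks, ω q.1) * (R J₂ : ℝ≥0∞) ^ γ +
        ∑' q : M.Blocks, ∑' j, (R (J₂ + j + 1) : ℝ≥0∞) ^ γ *
          (if R (J₂ + j) < C q.1 then ω q.1 else 0) := by
        rw [← ENNReal.tsum_mul_right, ← ENNReal.tsum_add]
        refine tsum_congr fun q => ?_
        rw [mul_add, ← ENNReal.tsum_mul_left]
        congr 1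
        refine tsum_congr fun j => ?_
        by_cases h : R (J₂ + j) < C q.1 <;> simp [h, mul_comm]
    _ = _ := by
        have : ∑' q : M.Blocks, ω q.1 = 1 := hF
        rw [this, one_mul, ENNReal.tsum_comm]
        congr 1
        refine tsum_congr fun j => ?_
        rw [ENNReal.tsum_mul_left]
        rfl

end Moment

section Pair

variable {X₁ X₂ : Type*} {M₁ : RM X₁} {M₂ : RM X₂}
  {G : Type*} [AddCommGroup G] [DecidableEq G] (P₁ : Prof G M₁) (P₂ : Prof G M₂)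
  {ω₁ : X₁ → ℝ≥0∞} {ω₂ : X₂ → ℝ≥0∞}

lemma pw_mono {ν₁ ν₁' : X₁ → ℝ≥0∞} {ν₂ ν₂' : X₂ → ℝ≥0∞} (h₁ : ∀ x, ν₁ x ≤ ν₁' x)
    (h₂ : ∀ x, ν₂ x ≤ ν₂' x) (g : PairT M₁ M₂) : pw ν₁ ν₂ g ≤ pw ν₁' ν₂' g :=
  mul_le_mul' (h₁ _) (h₂ _)

/-- The Markov inequality on a level of the pairs. -/
lemma markov_level (ν : PairT M₁ M₂ → ℝ≥0∞) (ν' : PairT M₁ M₂ → ℝ≥0∞) (hν : ∀ g, ν g ≤ ν' g)
    (C : PairT M₁ M₂ → ℕ) (m R : ℕ) {q E : ℝ≥0∞} (hq : q + q ≤ (pairM M₁ M₂).gsum ν m)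
    (hE : emom (pairM M₁ M₂) ν C m ≤ E) (hRq : E ≤ (R : ℝ≥0∞) * q) (hR : R ≠ 0) (hqt : q ≠ ⊤) :
    q ≤ (pairM M₁ M₂).gsum (tr ν' C R) m := by
  classical
  set first := ∑' g : PairT M₁ M₂, if (pairM M₁ M₂).lev g = m ∧ C g ≤ R then ν g else 0 with hfirst
  set second := ∑' g : PairT M₁ M₂, if (pairM M₁ M₂).lev g = m ∧ ¬ C g ≤ R then ν g else 0
    with hsecond
  have hsplit : (pairM M₁ M₂).gsum ν m = first + second := by
    rw [hfirst, hsecond, ← ENNReal.tsum_add]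
    unfold gsum
    refine tsum_congr fun g => ?_
    by_cases h1 : M₁.lev g.1.1 = m <;> by_cases h2 : C g ≤ R <;> simp [h1, h2]
  have hmark : (R : ℝ≥0∞) * second ≤ emom (pairM M₁ M₂) ν C m := by
    rw [hsecond, ← ENNReal.tsum_mul_left]
    unfold emom
    refine ENNReal.tsum_le_tsum fun g => ?_
    by_cases h1 : M₁.lev g.1.1 = m
    · by_cases h2 : C g ≤ R
      · simp [h1, h2]
      · have h3 : (R : ℝ≥0∞) ≤ (C g : ℝ≥0∞) := by
          exact_mod_cast (not_le.mp h2).le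
        simp only [pairM_lev, h1, h2, not_false_eq_true, and_self, if_true]
        rw [mul_comm]
        gcongr
    · simp [h1]
  have hRne : (R : ℝ≥0∞) ≠ 0 := by exact_mod_cast hR
  have hsec : second ≤ q :=
    (ENNReal.mul_le_mul_iff_right hRne (by simp)).mp (hmark.trans (hE.trans hRq))
  have hfirst' : q ≤ first := by
    have h8 : q + q ≤ first + q := by
      calc q + q ≤ _ := hq
        _ = first + second := hsplit
        _ ≤ _ := by gcongr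
    exact (ENNReal.add_le_add_iff_right hqt).mp h8
  refine hfirst'.trans ?_
  rw [hfirst]
  unfold gsum
  refine ENNReal.tsum_le_tsum fun g => ?_
  by_cases h1 : (pairM M₁ M₂).lev g = m
  · by_cases h2 : C g ≤ R
    · rw [if_pos ⟨h1, h2⟩, if_pos h1]
      unfold tr
      rw [if_pos h2]
      exact hν g
    · rw [if_neg (fun h => h2 h.2)]
      exact zero_le
  · rw [if_neg (fun h => h1 h.1), if_neg h1]

/-- **Fractional moment of the number of obstacles of a pair block.** -/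
theorem pair_gamma (h₁ : M₁.Mult ω₁) (h₂ : M₂.Mult ω₂)
    (hFp : (pairM M₁ M₂).bmass (pw ω₁ ω₂) = 1) (hup : ∀ m, (pairM M₁ M₂).gsum (pw ω₁ ω₂) m ≤ 1)
    {T₁ T₂ : ℕ → ℕ} {K₁ K₂ B₁ B₂ p₁ p₂ : ℝ} {J₁ : ℕ} (hK₁ : 0 ≤ K₁) (hK₂ : 0 ≤ K₂)
    (hB₁ : 1 < B₁) (hB₂ : 1 < B₂) (hp₁ : 0 < p₁) (hp₂ : 0 < p₂)
    (hocc₁ : ∀ J, J₁ ≤ J → ∀ m, 2 ^ J ≤ 2 * m → m ≤ 2 ^ J → ∀ k,
      occ M₁ P₁ (tr ω₁ P₁.len (T₁ J)) m k ≤ ENNReal.ofReal (K₁ * B₁ ^ J))
    (hocc₂ : ∀ J, J₁ ≤ J → ∀ m, 2 ^ J ≤ 2 * m → m ≤ 2 ^ J → ∀ k,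
      occ M₂ P₂ (tr ω₂ P₂.len (T₂ J)) m k ≤ ENNReal.ofReal (K₂ * B₂ ^ J))
    (hq₁ : ∀ J, J₁ ≤ J → ∀ m, 2 ^ J ≤ 2 * m → m ≤ 2 ^ J →
      ENNReal.ofReal p₁ ≤ M₁.gsum (tr ω₁ P₁.len (T₁ J)) m)
    (hq₂ : ∀ J, J₁ ≤ J → ∀ m, 2 ^ J ≤ 2 * m → m ≤ 2 ^ J →
      ENNReal.ofReal p₂ ≤ M₂.gsum (tr ω₂ P₂.len (T₂ J)) m)
    {γ : ℝ} (hγ : 0 < γ) (hρ : (2 * B₁ * B₂) ^ γ < 2) :
    ∑' q : (pairM M₁ M₂).Blocks, pw ω₁ ω₂ q.1 * ((pairC P₁ P₂ q.1 : ℕ) : ℝ≥0∞) ^ γ ≠ ⊤ := by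
  classical
  set ρ : ℝ := 2 * B₁ * B₂ with hρdef
  have hB₁0 : 0 < B₁ := by linarith
  have hB₂0 : 0 < B₂ := by linarith
  have hρ1 : 1 < ρ := by
    have : 1 < B₁ * B₂ := by nlinarith
    rw [hρdef]
    nlinarith
  have hρ0 : 0 < ρ := by linarith
  set pp : ℝ := p₁ * p₂ / 2 with hpp
  have hpp0 : 0 < pp := by positivity
  set K : ℝ := K₁ * K₂ / pp + 1 with hK
  have hK1 : 1 ≤ K := by
    rw [hK]
    have : 0 ≤ K₁ * K₂ / pp := by positivity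
    linarith
  have hK0 : 0 < K := by linarith
  -- the thresholds
  set R : ℕ → ℕ := fun J => ⌈K * ρ ^ J⌉₊ with hR
  have hρJ1 : ∀ J : ℕ, 1 ≤ K * ρ ^ J := fun J => by
    have : 1 ≤ ρ ^ J := one_le_pow₀ hρ1.le
    nlinarith
  have hRpos : ∀ J, R J ≠ 0 := fun J => by
    have h := Nat.le_ceil (K * ρ ^ J)
    have h2 := hρJ1 J
    intro h0
    simp only [hR] at h0
    rw [h0] at h
    norm_num at h
    linarith
  have hRle : ∀ J, (R J : ℝ) ≤ 2 * (K * ρ ^ J) := fun J => by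
    have h := Nat.ceil_lt_add_one (a := K * ρ ^ J) (by linarith [hρJ1 J])
    have h2 := hρJ1 J
    simp only [hR]
    linarith
  have hRge : ∀ J, K * ρ ^ J ≤ (R J : ℝ) := fun J => Nat.le_ceil _
  -- the mass bound at the pair level
  have hmass : ∀ J, J₁ ≤ J → ∀ m, 2 ^ J ≤ 2 * m → m ≤ 2 ^ J → ENNReal.ofReal pp ≤
      (pairM M₁ M₂).gsum (tr (pw ω₁ ω₂) (pairC P₁ P₂) (R J)) m := by
    intro J hJ m hm1 hm2
    set ν₁ := tr ω₁ P₁.len (T₁ J) with hν₁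
    set ν₂ := tr ω₂ P₂.len (T₂ J) with hν₂
    have hq : ENNReal.ofReal pp + ENNReal.ofReal pp ≤ (pairM M₁ M₂).gsum (pw ν₁ ν₂) m := by
      rw [gsum_pair, ← ENNReal.ofReal_add hpp0.le hpp0.le]
      have e : pp + pp = p₁ * p₂ := by rw [hpp]; ring
      rw [e, ENNReal.ofReal_mul hp₁.le]
      exact mul_le_mul' (hq₁ J hJ m hm1 hm2) (hq₂ J hJ m hm1 hm2)
    have hE : emom (pairM M₁ M₂) (pw ν₁ ν₂) (pairC P₁ P₂) m ≤
        ENNReal.ofReal (K₁ * K₂ * ρ ^ J) := by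
      rw [emom_pair]
      calc ∑ k ∈ Finset.range m, occ M₁ P₁ ν₁ m k * occ M₂ P₂ ν₂ m k
          ≤ ∑ _k ∈ Finset.range m, ENNReal.ofReal (K₁ * B₁ ^ J) * ENNReal.ofReal (K₂ * B₂ ^ J) :=
            Finset.sum_le_sum fun k _ =>
              mul_le_mul' (hocc₁ J hJ m hm1 hm2 k) (hocc₂ J hJ m hm1 hm2 k)
        _ = (m : ℝ≥0∞) * (ENNReal.ofReal (K₁ * B₁ ^ J) * ENNReal.ofReal (K₂ * B₂ ^ J)) := by
            rw [Finset.sum_const, Finset.card_range, nsmul_eq_mul]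
        _ ≤ ENNReal.ofReal ((2 : ℝ) ^ J) *
            (ENNReal.ofReal (K₁ * B₁ ^ J) * ENNReal.ofReal (K₂ * B₂ ^ J)) := by
            gcongr
            rw [← ENNReal.ofReal_natCast]
            refine ENNReal.ofReal_le_ofReal ?_
            exact_mod_cast hm2
        _ = ENNReal.ofReal ((2 : ℝ) ^ J * ((K₁ * B₁ ^ J) * (K₂ * B₂ ^ J))) := by
            rw [← ENNReal.ofReal_mul (by positivity), ← ENNReal.ofReal_mul (by positivity)]
        _ = _ := by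
            congr 1
            rw [hρdef, mul_pow, mul_pow]
            ring
    refine markov_level (pw ν₁ ν₂) (pw ω₁ ω₂) (pw_mono (tr_le _ _ _) (tr_le _ _ _)) (pairC P₁ P₂) m
      (R J) hq hE ?_ (hRpos J) ENNReal.ofReal_ne_top
    rw [← ENNReal.ofReal_natCast, ← ENNReal.ofReal_mul (by positivity)]
    refine ENNReal.ofReal_le_ofReal ?_
    calc K₁ * K₂ * ρ ^ J = (K₁ * K₂ / pp) * ρ ^ J * pp := by
          field_simp
      _ ≤ K * ρ ^ J * pp := by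
          gcongr
          rw [hK]
          linarith
      _ ≤ _ := by
          gcongr
          exact hRge J
  -- the tail bound
  have hcop := pairC_op P₁ P₂
  have htail : ∀ J, J₁ ≤ J → tailB (pairM M₁ M₂) (pw ω₁ ω₂) (pairC P₁ P₂) (R (J + 1)) ≤
      ENNReal.ofReal (1 / (pp * 2 ^ J)) := by
    intro J hJ
    have h1 := tail_le_of_range (pw_mult h₁ h₂) hFp hup hcop (R (J + 1)) (2 ^ J) (2 ^ J)
      (q := ENNReal.ofReal pp) (fun m hm1 hm2 => hmass (J + 1) (by omega) m (by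
        have : 2 ^ (J + 1) = 2 * 2 ^ J := by ring
        omega) (by
        have : 2 ^ (J + 1) = 2 ^ J + 2 ^ J := by ring
        omega))
    have e : ((2 ^ J : ℕ) : ℝ≥0∞) * ENNReal.ofReal pp = ENNReal.ofReal (pp * 2 ^ J) := by
      rw [ENNReal.ofReal_mul hpp0.le, mul_comm]
      congr 1
      rw [ENNReal.ofReal_pow (by norm_num)]
      push_cast
      simp
    rw [e] at h1
    have hpos : 0 < pp * 2 ^ J := by positivity
    rw [ENNReal.ofReal_div_of_pos hpos, ENNReal.ofReal_one]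
    exact ENNReal.le_div_iff_mul_le (Or.inl (by simpa using hpos)) (Or.inl ENNReal.ofReal_ne_top)
      |>.mpr h1
  -- unbounded thresholds
  have hunb : ∀ n, ∃ l, n ≤ R (J₁ + 1 + l) := by
    intro n
    obtain ⟨l, hl⟩ := pow_unbounded_of_one_lt (n : ℝ) hρ1
    refine ⟨l, ?_⟩
    have h1 : (n : ℝ) ≤ R (J₁ + 1 + l) := by
      have h2 := hRge (J₁ + 1 + l)
      have h3 : ρ ^ l ≤ ρ ^ (J₁ + 1 + l) := pow_le_pow_right₀ hρ1.le (by omega)
      have h4 : ρ ^ (J₁ + 1 + l) ≤ K * ρ ^ (J₁ + 1 + l) := by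
        have : 0 < ρ ^ (J₁ + 1 + l) := by positivity
        nlinarith
      linarith
    exact_mod_cast h1
  have hmom := moment_of_tails hFp (pairC P₁ P₂) hγ.le R (J₁ + 1) hunb
  refine ne_top_of_le_ne_top ?_ hmom
  refine ENNReal.add_ne_top.mpr ⟨ENNReal.rpow_ne_top_of_nonneg hγ.le (ENNReal.natCast_ne_top _), ?_⟩
  -- the sum of the terms
  set x : ℝ := ρ ^ γ / 2 with hx
  have hργ0 : 0 < ρ ^ γ := Real.rpow_pos_of_pos hρ0 γ
  have hx0 : 0 ≤ x := by positivity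
  have hx1 : x < 1 := by
    rw [hx, div_lt_one (by norm_num)]
    exact hρ
  set C₅ : ℝ := (2 * K * ρ) ^ γ * ρ ^ γ * (1 / pp) with hC₅
  have hC₅0 : 0 ≤ C₅ := by positivity
  have hterm : ∀ j, (R (J₁ + 1 + j + 1) : ℝ≥0∞) ^ γ *
      tailB (pairM M₁ M₂) (pw ω₁ ω₂) (pairC P₁ P₂) (R (J₁ + 1 + j)) ≤
      ENNReal.ofReal (C₅ * x ^ (J₁ + j)) := by
    intro j
    have e1 : J₁ + 1 + j = (J₁ + j) + 1 := by ring
    rw [e1]
    set J := J₁ + j with hJ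
    have h1 := htail J (by omega)
    have h2 : (R (J + 1 + 1) : ℝ≥0∞) ^ γ ≤ ENNReal.ofReal ((2 * K * ρ) ^ γ * (ρ ^ γ) ^ (J + 1)) := by
      have h3 : (R (J + 1 + 1) : ℝ≥0∞) ≤ ENNReal.ofReal (2 * K * ρ * ρ ^ (J + 1)) := by
        rw [← ENNReal.ofReal_natCast]
        refine ENNReal.ofReal_le_ofReal ((hRle _).trans (le_of_eq ?_))
        rw [pow_succ ρ (J + 1)]
        ring
      refine (ENNReal.rpow_le_rpow h3 hγ.le).trans (le_of_eq ?_)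
      rw [ENNReal.ofReal_rpow_of_nonneg (by positivity) hγ.le]
      congr 1
      rw [Real.mul_rpow (by positivity) (by positivity), ← Real.rpow_natCast ρ (J + 1),
        ← Real.rpow_mul hρ0.le, mul_comm ((J + 1 : ℕ) : ℝ) γ, Real.rpow_mul hρ0.le,
        Real.rpow_natCast]
    calc _ ≤ ENNReal.ofReal ((2 * K * ρ) ^ γ * (ρ ^ γ) ^ (J + 1)) *
          ENNReal.ofReal (1 / (pp * 2 ^ J)) := mul_le_mul' h2 h1
      _ = ENNReal.ofReal ((2 * K * ρ) ^ γ * (ρ ^ γ) ^ (J + 1) * (1 / (pp * 2 ^ J))) :=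
          (ENNReal.ofReal_mul (by positivity)).symm
      _ ≤ _ := by
          refine ENNReal.ofReal_le_ofReal (le_of_eq ?_)
          rw [hC₅, hx, div_pow, pow_succ]
          field_simp
  refine ne_top_of_le_ne_top ?_ (ENNReal.tsum_le_tsum hterm)
  refine Summable.tsum_ofReal_ne_top ?_
  have hs := (summable_geometric_of_lt_one hx0 hx1).mul_left (C₅ * x ^ J₁)
  refine hs.congr fun j => ?_
  rw [pow_add]
  ring

end Pair

end Vale.Agent.Lib.P147.Poly
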