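import Vale.Agent.Lib.P147.RangeMain

/-!
# Polynomial growth of the range along the levels: from the escape event to masses of excursions
-/

open MeasureTheory ProbabilityTheory Filter Set
open scoped ENNReal

set_option linter.unusedSectionVars false

namespace Vale.Agent.Lib.P147.Poly

variable {d : ℕ}

/-- The polynomial bound of the range. -/
noncomputable def fPoly (β : ℝ) (c m : ℕ) : ℕ := ⌈(c : ℝ) * (m : ℝ) ^ β⌉₊

lemma fPoly_mono {β : ℝ} (hβ : 0 ≤ β) (c : ℕ) : Monotone (fPoly β c) := by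
  intro a b hab
  refine Nat.ceil_mono ?_
  gcongr

lemma fPoly_mono_c (β : ℝ) {c c' : ℕ} (h : c ≤ c') (m : ℕ) : fPoly β c m ≤ fPoly β c' m := by
  refine Nat.ceil_mono ?_
  gcongr

/-- The path event: escape with polynomially growing range. -/
def EscP (L : Site d → ℤ) (β : ℝ) : Set (ℕ → Site d) :=
  {X | Tendsto (fun n => L (X n)) atTop atTop ∧
    ∃ c : ℕ, ∀ᶠ m : ℕ in atTop, (sitesBelow L X m).encard ≤ ((fPoly β c m : ℕ) : ℕ∞)}

lemma measurableSet_EscP (L : Site d → ℤ) (β : ℝ) : MeasurableSet (EscP L β) := by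
  have : EscP L β = (⋂ K : ℤ, ⋃ N : ℕ, ⋂ n : ℕ, ⋂ (_ : N ≤ n), {X | K ≤ L (X n)}) ∩
      (⋃ c : ℕ, ⋃ N : ℕ, ⋂ m : ℕ, ⋂ (_ : N ≤ m),
        {X | (sitesBelow L X m).encard ≤ ((fPoly β c m : ℕ) : ℕ∞)}) := by
    ext X
    simp only [EscP, Set.mem_ofPred_eq, Set.mem_inter_iff, Set.mem_iInter, Set.mem_iUnion,
      tendsto_atTop_atTop, eventually_atTop, ge_iff_le]
  rw [this]
  refine MeasurableSet.inter (MeasurableSet.iInter fun K => MeasurableSet.iUnion fun N =>
    MeasurableSet.iInter fun n => MeasurableSet.iInter fun _ => ?_)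
    (MeasurableSet.iUnion fun c => MeasurableSet.iUnion fun N =>
      MeasurableSet.iInter fun m => MeasurableSet.iInter fun _ =>
        measurableSet_encard_sitesBelow_le L m (fPoly β c m))
  have hf : Measurable (fun X : ℕ → Site d => L (X n)) :=
    (measurable_of_countable L).comp (measurable_pi_apply n)
  exact hf (measurableSet_Ici (a := K))

variable {i₀ : Fin d} (L : Site d →+ ℤ)

variable (i₀)

/-- The range is bounded by `f` from the level `N` on. -/
def RLf (f : ℕ → ℕ) (N : ℕ) : Set (Om d) :=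
  {s | ∀ m, N ≤ m → (sitesBelow L (W i₀ s) m).encard ≤ ((f m : ℕ) : ℕ∞)}

variable {i₀}

variable {μ : Measure (Row d)} [IsProbabilityMeasure μ]

/-- A bound of the range gives a lower bound for the excursions with few sites. -/
lemma range_mass {L : Site d →+ ℤ} (hNN : ∀ e : Step d, L (stepVec e) ≤ 1) (f : ℕ → ℕ) (N m : ℕ)
    (hm : N ≤ m) :
    jointLaw μ unif0 (DL i₀ L ∩ RLf i₀ L f N) ≤
      ∑' x : XW L, if (wordM L).lev x = m ∧ (posL 0 x.1).toFinset.card ≤ f m then
        wtW L μ x else 0 := by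
  classical
  refine mass_ge (μ := μ) i₀ L (fun x => (wordM L).lev x = m ∧
    (posL 0 x.1).toFinset.card ≤ f m) _ ?_
  rintro s ⟨hs, hv⟩
  obtain ⟨N₁, hN₁⟩ := hs.2 m
  obtain ⟨n, h2, h3, h4⟩ := exists_strip hNN s hs.1 m ⟨N₁, hN₁ N₁ le_rfl⟩
  refine ⟨⟨_, m, h4⟩, ⟨h4.lev, ?_⟩, foll_traj _ _ _⟩
  have hsub : ((posL 0 (traj i₀ s.2 s.1 0 n)).toFinset : Set (Site d)) ⊆
      sitesBelow L (W i₀ s) m := by
    intro v hv'
    obtain ⟨k, hk, rfl⟩ := mem_posL_traj (List.mem_toFinset.mp (Finset.mem_coe.mp hv'))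
    exact ⟨k, rfl, fun j hj => h3 j (by omega)⟩
  have h5 := (Set.encard_le_encard hsub).trans (hv m hm)
  rw [Set.encard_coe_eq_coe_finsetCard] at h5
  exact_mod_cast h5

variable (i₀) in
/-- Transience with a bounded range on an event of positive probability gives a regeneration with
a bounded range on an event of positive probability. -/
theorem range_regen {f : ℕ → ℕ} (hf : Monotone f)
    (h : jointLaw μ unif0 {s : Om d | Tendsto (fun n => L (W i₀ s n)) atTop atTop ∧
      ∀ᶠ m : ℕ in atTop, (sitesBelow L (W i₀ s) m).encard ≤ ((f m : ℕ) : ℕ∞)} ≠ 0) :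
    ∃ N : ℕ, jointLaw μ unif0 (DL i₀ L ∩ RLf i₀ L f N) ≠ 0 := by
  by_contra hcon
  push Not at hcon
  apply h
  have hcov : {s : Om d | Tendsto (fun n => L (W i₀ s n)) atTop atTop ∧
      ∀ᶠ m : ℕ in atTop, (sitesBelow L (W i₀ s) m).encard ≤ ((f m : ℕ) : ℕ∞)} ⊆
      ⋃ (n : ℕ) (z : Site d) (N : ℕ), shiftOm n z ⁻¹' (DL i₀ L ∩ RLf i₀ L f N) := by
    rintro s ⟨ht, hr⟩
    obtain ⟨N₀, hN₀⟩ := eventually_atTop.mp hr
    -- a minimum of the level process
    obtain ⟨N₂, hN₂⟩ := tendsto_atTop_atTop.mp ht (L (W i₀ s 0))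
    obtain ⟨n₁, hn₁, hmin⟩ := Finset.exists_min_image (Finset.range (N₂ + 1))
      (fun n => L (W i₀ s n)) ⟨0, by simp⟩
    have hz0 : L (W i₀ s n₁) ≤ L (W i₀ s 0) := hmin 0 (by simp)
    have hmin' : ∀ n, L (W i₀ s n₁) ≤ L (W i₀ s n) := by
      intro n
      by_cases hn : n < N₂ + 1
      · exact hmin n (Finset.mem_range.mpr hn)
      · exact hz0.trans (hN₂ n (by omega))
    obtain ⟨n₂, _, hmax⟩ := Finset.exists_max_image (Finset.range (n₁ + 1))
      (fun n => L (W i₀ s n)) ⟨0, by simp⟩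
    set z := W i₀ s n₁ with hz
    set M := L (W i₀ s n₂) with hM
    have hz1 : L z ≤ 0 := by
      have : W i₀ s 0 = 0 := rfl
      rw [this, map_zero] at hz0
      exact hz0
    have hlev : ∀ k, L (W i₀ (shiftOm n₁ z s) k) = L (W i₀ s (n₁ + k)) - L z := by
      intro k
      have := congrArg L (W_shiftOm (i₀ := i₀) s n₁ k)
      rw [map_add] at this
      rw [← this]
      simp [hz]
    refine Set.mem_iUnion.mpr ⟨n₁, Set.mem_iUnion.mpr ⟨z, Set.mem_iUnion.mpr
      ⟨(M - L z + 1).toNat + N₀ + (- L z).toNat, ?_⟩⟩⟩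
    refine ⟨⟨fun n => ?_, fun K => ?_⟩, fun m hm => ?_⟩
    · rw [hlev]
      have := hmin' (n₁ + n)
      omega
    · obtain ⟨N₄, hN₄⟩ := tendsto_atTop_atTop.mp ht ((K : ℤ) + L z)
      refine ⟨N₄, fun n hn => ?_⟩
      rw [hlev]
      have := hN₄ (n₁ + n) (by omega)
      omega
    · -- the sites of the shifted walker are sites of the walker
      set m' := ((m : ℤ) + L z).toNat with hm'
      have hm'1 : (m' : ℤ) = (m : ℤ) + L z := by
        rw [hm']
        omega
      have hm'2 : m' ≤ m := by omega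
      have hm'3 : N₀ ≤ m' := by omega
      have hm'4 : M < (m' : ℤ) := by omega
      have hsub : Set.MapsTo (fun v => v + z) (sitesBelow L (W i₀ (shiftOm n₁ z s)) m)
          (sitesBelow L (W i₀ s) m') := by
        rintro v ⟨k, rfl, hk⟩
        refine ⟨n₁ + k, (W_shiftOm (i₀ := i₀) s n₁ k).symm, fun j hj => ?_⟩
        by_cases hj1 : j ≤ n₁
        · have := hmax j (Finset.mem_range.mpr (by omega))
          omega
        · obtain ⟨j', rfl⟩ : ∃ j', j = n₁ + j' := ⟨j - n₁, by omega⟩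
          have h1 := hk j' (by omega)
          rw [hlev] at h1
          omega
      have hinj : Set.InjOn (fun v : Site d => v + z) (sitesBelow L (W i₀ (shiftOm n₁ z s)) m) :=
        (add_left_injective z).injOn
      refine (Set.encard_le_encard_of_injOn hsub hinj).trans ((hN₀ m' hm'3).trans ?_)
      have : f m' ≤ f m := hf hm'2
      exact_mod_cast this
  refine measure_mono_null hcov ?_
  refine measure_iUnion_null fun n => measure_iUnion_null fun z => measure_iUnion_null fun N => ?_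
  have hle := Measure.le_map_apply (μ := jointLaw μ unif0)
    (measurePreserving_shiftOm (μ := μ) n z).measurable.aemeasurable (DL i₀ L ∩ RLf i₀ L f N)
  rw [(measurePreserving_shiftOm (μ := μ) n z).map_eq, hcon N] at hle
  exact le_antisymm hle zero_le

/-- From the escape with polynomial range to the masses of excursions. -/
lemma mass_of_esc {i : Fin d} {L : Site d →+ ℤ} (hNN : ∀ e : Step d, L (stepVec e) ≤ 1) {β : ℝ}
    (hβ : 0 ≤ β) (h : jointLaw μ unif0 (pathMap1 i ⁻¹' EscP (L : Site d → ℤ) β) ≠ 0) :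
    jointLaw μ unif0 (DL i L) ≠ 0 ∧ ∃ (c₀ N : ℕ) (p : ℝ), 1 ≤ c₀ ∧ 0 < p ∧
      ∀ m, N ≤ m → ENNReal.ofReal p ≤ ∑' x : XW L, if (wordM L).lev x = m ∧
        (posL 0 x.1).toFinset.card ≤ fPoly β c₀ m then wtW L μ x else 0 := by
  classical
  -- the choice of the constant
  have h1 : ∃ c : ℕ, jointLaw μ unif0 {s : Om d | Tendsto (fun n => L (W i s n)) atTop atTop ∧
      ∀ᶠ m : ℕ in atTop, (sitesBelow L (W i s) m).encard ≤ ((fPoly β c m : ℕ) : ℕ∞)} ≠ 0 := by
    by_contra hcon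
    push Not at hcon
    apply h
    refine measure_mono_null ?_ (measure_iUnion_null hcon)
    rintro s ⟨h2, c, h3⟩
    exact Set.mem_iUnion.mpr ⟨c, h2, h3⟩
  obtain ⟨c, hc⟩ := h1
  obtain ⟨N, hN⟩ := range_regen (μ := μ) i L (fPoly_mono hβ c) hc
  refine ⟨fun h0 => hN (measure_mono_null Set.inter_subset_left h0),
    c + 1, N, (jointLaw μ unif0 (DL i L ∩ RLf i L (fPoly β c) N)).toReal, by omega,
    ENNReal.toReal_pos hN (measure_ne_top _ _), fun m hm => ?_⟩
  rw [ENNReal.ofReal_toReal (measure_ne_top _ _)]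
  refine (range_mass hNN (fPoly β c) N m hm).trans (ENNReal.tsum_le_tsum fun x => ?_)
  by_cases hx : (wordM L).lev x = m ∧ (posL 0 x.1).toFinset.card ≤ fPoly β c m
  · rw [if_pos hx, if_pos ⟨hx.1, hx.2.trans (fPoly_mono_c β (by omega) m)⟩]
  · rw [if_neg hx]
    exact zero_le

end Vale.Agent.Lib.P147.Poly
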