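import Vale.Agent.Lib.P147.Poly.Chain
import Vale.Agent.Lib.P147.Poly.PairMoment
import Vale.Agent.Lib.P147.Poly.Hazard
import Vale.Agent.Lib.P147.Poly.Range

/-!
# No two opposite escapes with polynomially growing ranges
-/

open MeasureTheory ProbabilityTheory Filter Set
open scoped ENNReal

set_option linter.unusedSectionVars false

namespace Vale.Agent.Lib.P147.Poly

variable {d : ℕ}

section Arith

/-- Properties of the polynomial bound. -/
lemma fPoly_three {β : ℝ} (hβ : 1 ≤ β) {c : ℕ} (hc : 1 ≤ c) {N : ℕ} (hN : 1 ≤ N) :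
    fPoly β c N + (fPoly β c N + fPoly β c N) ≤ fPoly β c (8 * N) := by
  set x : ℝ := (c : ℝ) * (N : ℝ) ^ β with hx
  have hN' : (1 : ℝ) ≤ N := by exact_mod_cast hN
  have hc' : (1 : ℝ) ≤ c := by exact_mod_cast hc
  have hx1 : 1 ≤ x := by
    have : 1 ≤ (N : ℝ) ^ β := Real.one_le_rpow hN' (by linarith)
    rw [hx]
    nlinarith
  have h1 : (fPoly β c N : ℝ) ≤ 2 * x := by
    have := Nat.ceil_lt_add_one (a := x) (by linarith)
    unfold fPoly
    rw [← hx]
    linarith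
  have h2 : 8 * x ≤ (fPoly β c (8 * N) : ℝ) := by
    refine le_trans ?_ (Nat.le_ceil _)
    push_cast
    rw [Real.mul_rpow (by norm_num) (by positivity)]
    have h3 : (8 : ℝ) ≤ 8 ^ β := by
      calc (8 : ℝ) = 8 ^ (1 : ℝ) := (Real.rpow_one 8).symm
        _ ≤ 8 ^ β := Real.rpow_le_rpow_of_exponent_le (by norm_num) hβ
    have h4 : 0 ≤ (c : ℝ) * (N : ℝ) ^ β := by positivity
    rw [hx]
    nlinarith
  have h5 : ((fPoly β c N + (fPoly β c N + fPoly β c N) : ℕ) : ℝ) ≤ (fPoly β c (8 * N) : ℝ) := by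
    push_cast
    linarith
  exact_mod_cast h5

lemma fPoly_dyadic {β : ℝ} (hβ : 0 ≤ β) {c : ℕ} (hc : 1 ≤ c) (J : ℕ) :
    (fPoly β c (2 ^ J) : ℝ) ≤ (2 * c) * ((2 : ℝ) ^ β) ^ J := by
  have hc' : (1 : ℝ) ≤ c := by exact_mod_cast hc
  have e : ((2 ^ J : ℕ) : ℝ) ^ β = ((2 : ℝ) ^ β) ^ J := by
    push_cast
    rw [← Real.rpow_natCast, ← Real.rpow_mul (by norm_num), mul_comm, Real.rpow_mul (by norm_num),
      Real.rpow_natCast]
  have hy : 1 ≤ ((2 : ℝ) ^ β) ^ J := one_le_pow₀ (Real.one_le_rpow (by norm_num) hβ)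
  unfold fPoly
  rw [e]
  have := Nat.ceil_lt_add_one (a := (c : ℝ) * ((2 : ℝ) ^ β) ^ J) (by positivity)
  nlinarith

end Arith

section Words

variable {i : Fin d}

/-- Departure points stay at positive coordinate. -/
lemma posL_coord_pos (j : Fin d) (l : List (Step d)) (hl : ∀ f ∈ l, 0 ≤ stepVec f j) (z : Site d)
    (hz : 1 ≤ z j) : ∀ v ∈ posL z l, 1 ≤ v j := by
  induction l generalizing z with
  | nil => simp
  | cons f t ih =>
    intro v hv
    simp only [posL_cons, List.mem_cons] at hv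
    rcases hv with rfl | hv
    · exact hz
    · refine ih (fun f' hf' => hl f' (by simp [hf'])) _ ?_ v hv
      have := hl f (by simp)
      simp only [Pi.add_apply]
      omega

variable {μ : Measure (Row d)} [IsProbabilityMeasure μ]

/-- The corner words have a positive weight. -/
lemma wt_corner_ne (hμ : ∀ e : Step d, μ {p | 0 < p.1 e} ≠ 0) (tl : List (Step d))
    (htl : ∀ e ∈ tl, e.2 = true ∧ e.1 ≠ i) : wt μ (tl ++ [((i, false) : Step d)]) ≠ 0 := by
  induction tl with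
  | nil => exact wt_single_pos (hμ _)
  | cons e t ih =>
    have h1 := ih (fun e' he' => htl e' (by simp [he']))
    obtain ⟨j, b⟩ := e
    obtain ⟨hb, hj⟩ := htl (j, b) (by simp)
    simp only at hb hj
    subst hb
    refine wt_cons_pos (hμ _) h1 ?_
    intro hmem
    have h2 := posL_coord_pos j (t ++ [((i, false) : Step d)]) ?_ (stepVec ((j, true) : Step d)) ?_ 0 hmem
    · simp at h2
    · intro f hf
      rw [List.mem_append] at hf
      rcases hf with hf | hf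
      · obtain ⟨k, c⟩ := f
        obtain ⟨hc, _⟩ := htl (k, c) (by simp [hf])
        simp only at hc
        subst hc
        rw [stepVec_apply]
        by_cases hjk : j = k <;> simp [hjk]
      · rw [List.mem_singleton] at hf
        subst hf
        rw [stepVec_other j (Ne.symm hj.symm)]
    · rw [stepVec_same]
      simp

end Words

section Blocks

variable {G : Type*} [AddCommGroup G] [DecidableEq G] {i : Fin d} {proj : Site d →+ G}

/-- Displacement of a block. -/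
lemma delta_mkBlock (hp : ∀ b : Bool, proj (stepVec ((i, b) : Step d)) = 0) (tl : List (Step d))
    (htl : ∀ e ∈ tl, (-levL i) (stepVec e) = 0) :
    pairΔ (profA (levL i) proj) (profB (-levL i) proj) (mkBlock i tl htl).1 =
      proj (endP 0 tl) := by
  show proj (endP 0 (tl ++ [(i, false)])) - (- proj (endP 0 [(i, true)])) = _
  rw [endP_append]
  simp only [endP_cons, endP_nil, zero_add, map_add, hp]
  simp

/-- Obstacles of a block. -/
lemma obstacle_mkBlock (hp : ∀ b : Bool, proj (stepVec ((i, b) : Step d)) = 0) (tl : List (Step d))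
    (htl : ∀ e ∈ tl, (-levL i) (stepVec e) = 0) {u : G}
    (hu : u ∈ pairO (profA (levL i) proj) (profB (-levL i) proj) (mkBlock i tl htl).1) :
    ∃ z ∈ posL 0 (tl ++ [((i, false) : Step d)]), u = - proj z := by
  rw [mem_pairO] at hu
  obtain ⟨k, a, b, ha, hb, hab⟩ := hu
  obtain ⟨z₁, hz₁, he₁⟩ := List.mem_map.mp ha
  have hz₁' : z₁ = 0 := by
    have : z₁ ∈ posL 0 [((i, true) : Step d)] := List.mem_reverse.mp hz₁
    simpa using this
  subst hz₁'
  obtain ⟨z₂, hz₂, he₂⟩ := List.mem_map.mp hb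
  refine ⟨z₂, hz₂, ?_⟩
  have ha0 : a = 0 := by
    have h3 : proj (0 - endP 0 [((i, true) : Step d)]) = a := congrArg Prod.snd he₁
    rw [← h3]
    simp only [endP_cons, endP_nil, zero_add, zero_sub, map_neg, hp]
    simp
  have hb0 : b = proj z₂ := (congrArg Prod.snd he₂).symm
  rw [← hab, ha0, hb0]
  simp

end Blocks

section Concrete

variable (i : Fin d)

/-- The transverse coordinates. -/
abbrev Tr (i : Fin d) : Type := {j : Fin d // j ≠ i}

/-- The projection to the transverse coordinates. -/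
def projTr : Site d →+ (Tr i → ℤ) where
  toFun z j := z j.1
  map_zero' := rfl
  map_add' _ _ := rfl

@[simp] lemma projTr_apply (z : Site d) (j : Tr i) : projTr i z j = z j.1 := rfl

lemma projTr_step_i (b : Bool) : projTr i (stepVec ((i, b) : Step d)) = 0 := by
  funext j
  simp only [projTr_apply, Pi.zero_apply]
  exact stepVec_other j.1 j.2 b

lemma card_tr : Fintype.card (Tr i) = d - 1 := by
  have := Fintype.card_subtype_compl (fun j : Fin d => j = i)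
  simp only [Fintype.card_fin, Fintype.card_unique] at this
  convert this

/-- The corner words. -/
lemma exists_corner_word (S : Finset (Tr i)) :
    ∃ tl : List (Step d), (∀ e ∈ tl, e.2 = true ∧ e.1 ≠ i) ∧
      projTr i (endP 0 tl) = fun j => if j ∈ S then 1 else 0 := by
  induction S using Finset.induction_on with
  | empty =>
    exact ⟨[], by simp, by funext j; simp⟩
  | insert a S ha ih =>
    obtain ⟨tl, h1, h2⟩ := ih
    refine ⟨((a.1, true) : Step d) :: tl, ?_, ?_⟩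
    · intro e he
      rw [List.mem_cons] at he
      rcases he with rfl | he
      · exact ⟨rfl, a.2⟩
      · exact h1 e he
    · rw [endP_cons, endP_eq_add, map_add, h2, zero_add]
      funext j
      simp only [Pi.add_apply, projTr_apply]
      rw [stepVec_apply]
      by_cases hja : j = a
      · subst hja
        simp [ha]
      · have hja' : j.1 ≠ a.1 := fun h => hja (Subtype.ext h)
        simp [hja, hja']

end Concrete

section Core

variable {i : Fin d} {μ : Measure (Row d)} [IsProbabilityMeasure μ]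

lemma mass_to_gsum {X : Type*} {M : RM X} {G : Type*} [AddCommGroup G] [DecidableEq G]
    (P : Prof G M) (ω : X → ℝ≥0∞) (C : X → ℕ) (hlen : ∀ x, P.len x ≤ C x) (m T : ℕ)
    [∀ x, Decidable (M.lev x = m ∧ C x ≤ T)] :
    (∑' x, if M.lev x = m ∧ C x ≤ T then ω x else 0) ≤ M.gsum (tr ω P.len T) m := by
  classical
  unfold RM.gsum
  refine ENNReal.tsum_le_tsum fun x => ?_
  by_cases h : M.lev x = m ∧ C x ≤ T
  · rw [if_pos h, if_pos h.1]
    unfold tr
    rw [if_pos ((hlen x).trans h.2)]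
  · rw [if_neg h]
    exact zero_le

/-- **The two sided theorem for the joint law, in terms of the masses of the short excursions.** -/
theorem poly_core (hd : 4 ≤ d)
    (hμ : ∀ e : Step d, μ {p | 0 < p.1 e} ≠ 0)
    (hq₁ : jointLaw μ unif0 (DL i (levL i)) ≠ 0) (hq₂ : jointLaw μ unif0 (DL i (-levL i)) ≠ 0)
    {β₁ β₂ : ℝ} (hβ₁ : 1 < β₁) (hβ₂ : 1 < β₂) (hβ : β₁ + β₂ < ((d : ℝ) + 1) / 2)
    {c₁ c₂ N N' : ℕ} {p₁ p₂ : ℝ} (hc₁ : 1 ≤ c₁) (hc₂ : 1 ≤ c₂) (hp₁ : 0 < p₁) (hp₂ : 0 < p₂)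
    (hs₁ : ∀ m, N ≤ m → ENNReal.ofReal p₁ ≤ ∑' x : XW (levL i), if (wordM (levL i)).lev x = m ∧
      (posL 0 x.1).toFinset.card ≤ fPoly β₁ c₁ m then wtW (levL i) μ x else 0)
    (hs₂ : ∀ m, N' ≤ m → ENNReal.ofReal p₂ ≤ ∑' x : XW (-levL i), if (wordM (-levL i)).lev x = m ∧
      (posL 0 x.1).toFinset.card ≤ fPoly β₂ c₂ m then wtW (-levL i) μ x else 0) : False := by
  classical
  set L := levL i with hL
  set proj := projTr i with hproj
  have hNN : ∀ e : Step d, L (stepVec e) ≤ 1 := levL_nn i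
  have hNN' : ∀ e : Step d, (-L) (stepVec e) ≤ 1 := neg_levL_nn i
  -- regeneration probabilities
  set q₁ := jointLaw μ unif0 (DL i L) with hq₁def
  set q₂ := jointLaw μ unif0 (DL i (-L)) with hq₂def
  have hM₁ := wtW_mult_rev (μ := μ) L
  have hM₂ := wtW_mult (μ := μ) (-L)
  have hlow₁ : ∀ m, q₁ ≤ (wordM L).rev.gsum (wtW L μ) m := fun m => DL_le_gsum L hNN m
  have hlow₂ : ∀ m, q₂ ≤ (wordM (-L)).gsum (wtW (-L) μ) m := fun m => DL_le_gsum (-L) hNN' m
  have hup₁ : ∀ m, (wordM L).rev.gsum (wtW L μ) m ≤ 1 := fun m => gsum_le_one L i m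
  have hup₂ : ∀ m, (wordM (-L)).gsum (wtW (-L) μ) m ≤ 1 := fun m => gsum_le_one (-L) i m
  have hF₁ := RM.bmass_eq_one hM₁ (pos_iff_ne_zero.mpr hq₁) hlow₁ hup₁
  have hF₂ := RM.bmass_eq_one hM₂ (pos_iff_ne_zero.mpr hq₂) hlow₂ hup₂
  have hMp := RM.pw_mult hM₁ hM₂
  have hupp : ∀ m, (RM.pairM (wordM L).rev (wordM (-L))).gsum
      (RM.pw (wtW L μ) (wtW (-L) μ)) m ≤ 1 := fun m => by
    rw [RM.gsum_pair]
    calc _ ≤ (1 : ℝ≥0∞) * 1 := mul_le_mul' (hup₁ m) (hup₂ m)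
      _ = 1 := one_mul 1
  have hFp := RM.bmass_eq_one hMp (q₀ := q₁ * q₂)
    (ENNReal.mul_pos hq₁ hq₂) (fun m => by
      rw [RM.gsum_pair]
      exact mul_le_mul' (hlow₁ m) (hlow₂ m)) hupp
  -- the arithmetic of the exponents
  have hcard : Fintype.card (Tr i) = d - 1 := card_tr i
  have hd' : (4 : ℝ) ≤ d := by exact_mod_cast hd
  have hsd : sDim (Tr i) = ((d : ℝ) - 1) / 2 := by
    rw [sDim, hcard, Nat.cast_sub (by omega)]
    simp
  set s : ℝ := sDim (Tr i) with hs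
  have hs1 : 1 ≤ s := by
    rw [hsd]
    linarith
  set τ : ℝ := β₁ + β₂ - 1 with hτ
  have hτ1 : 1 < τ := by
    rw [hτ]
    linarith
  have hτs : τ < s := by
    rw [hsd, hτ]
    linarith
  have hs0 : 0 < s := by linarith
  have hτ0 : 0 < τ := by linarith
  set γ : ℝ := (1 / s + 1 / τ) / 2 with hγ
  have hγ0 : 0 < γ := by positivity
  have h1s : 1 / s ≤ 1 := by
    rw [div_le_one hs0]
    exact hs1
  have h1τ : 1 / τ ≤ 1 := by
    rw [div_le_one hτ0]
    exact hτ1.le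
  have hγ1 : γ ≤ 1 := by
    rw [hγ]
    linarith
  have hsτ : 1 < s / τ := by
    rw [one_lt_div hτ0]
    exact hτs
  have hτsl : τ / s < 1 := by
    rw [div_lt_one hs0]
    exact hτs
  have hsγ : 1 < s * γ := by
    have e : s * γ = (1 + s / τ) / 2 := by
      rw [hγ]
      field_simp
    rw [e]
    linarith
  have hτγ : τ * γ < 1 := by
    have e : τ * γ = (τ / s + 1) / 2 := by
      rw [hγ]
      field_simp
    rw [e]
    linarith
  set Λ₁ : ℝ := (2 : ℝ) ^ β₁ with hΛ₁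
  set Λ₂ : ℝ := (2 : ℝ) ^ β₂ with hΛ₂
  have hΛ : ∀ b : ℝ, 1 < b → (2 : ℝ) < (2 : ℝ) ^ b := by
    intro b hb
    calc (2 : ℝ) = 2 ^ (1 : ℝ) := (Real.rpow_one 2).symm
      _ < 2 ^ b := Real.rpow_lt_rpow_of_exponent_lt (by norm_num) hb
  have hΛ₁2 : 2 < Λ₁ := hΛ _ hβ₁
  have hΛ₂2 : 2 < Λ₂ := hΛ _ hβ₂
  have hρ : (2 * (Λ₁ / 2) * (Λ₂ / 2)) ^ γ < 2 := by
    have e : 2 * (Λ₁ / 2) * (Λ₂ / 2) = (2 : ℝ) ^ τ := by
      rw [hτ, Real.rpow_sub (by norm_num), Real.rpow_add (by norm_num), Real.rpow_one]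
      ring
    rw [e, ← Real.rpow_mul (by norm_num)]
    calc (2 : ℝ) ^ (τ * γ) < 2 ^ (1 : ℝ) := Real.rpow_lt_rpow_of_exponent_lt (by norm_num) hτγ
      _ = 2 := Real.rpow_one 2
  -- the single process bounds
  set P₁ := profA L proj with hP₁
  set P₂ := profB (-L) proj with hP₂
  have hs₁' : ∀ m, N ≤ m → ENNReal.ofReal p₁ ≤
      (wordM L).rev.gsum (tr (wtW L μ) P₁.len (fPoly β₁ c₁ m)) m := fun m hm =>
    (hs₁ m hm).trans (mass_to_gsum (M := (wordM L).rev) P₁ (wtW L μ)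
      (fun x => (posL 0 x.1).toFinset.card) (profA_len proj) m _)
  have hs₂' : ∀ m, N' ≤ m → ENNReal.ofReal p₂ ≤
      (wordM (-L)).gsum (tr (wtW (-L) μ) P₂.len (fPoly β₂ c₂ m)) m := fun m hm =>
    (hs₂ m hm).trans (mass_to_gsum P₂ (wtW (-L) μ)
      (fun x => (posL 0 x.1).toFinset.card) (profB_len proj) m _)
  have hmono₁ := fPoly_mono (β := β₁) (by linarith) c₁
  have hmono₂ := fPoly_mono (β := β₂) (by linarith) c₂
  obtain ⟨K₁, hK₁, J₁, hocc₁⟩ := occ_poly hM₁ hF₁ hup₁ P₁ hmono₁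
    (fun N hN => fPoly_three hβ₁.le hc₁ hN) hΛ₁2 (by positivity)
    (fPoly_dyadic (by linarith) hc₁) hp₁ hs₁'
  obtain ⟨K₂, hK₂, J₂, hocc₂⟩ := occ_poly hM₂ hF₂ hup₂ P₂ hmono₂
    (fun N hN => fPoly_three hβ₂.le hc₂ hN) hΛ₂2 (by positivity)
    (fPoly_dyadic (by linarith) hc₂) hp₂ hs₂'
  set Js : ℕ := J₁ + J₂ + 2 * N + 2 * N' with hJs
  have hmom := pair_gamma P₁ P₂ hM₁ hM₂ hFp hupp (T₁ := fun J => fPoly β₁ c₁ (2 ^ J))
    (T₂ := fun J => fPoly β₂ c₂ (2 ^ J)) (J₁ := Js) hK₁ hK₂ (B₁ := Λ₁ / 2) (B₂ := Λ₂ / 2)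
    (by linarith) (by linarith) hp₁ hp₂
    (fun J hJ m hm1 hm2 k => hocc₁ J (by omega) m hm1 hm2 k)
    (fun J hJ m hm1 hm2 k => hocc₂ J (by omega) m hm1 hm2 k)
    (fun J hJ m hm1 hm2 => by
      have h1 : J < 2 ^ J := Nat.lt_two_pow_self
      exact (hs₁' m (by omega)).trans (gsum_tr_mono _ _ (hmono₁ hm2) m))
    (fun J hJ m hm1 hm2 => by
      have h1 : J < 2 ^ J := Nat.lt_two_pow_self
      exact (hs₂' m (by omega)).trans (gsum_tr_mono _ _ (hmono₂ hm2) m))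
    hγ0 hρ
  -- the chain
  set w : (RM.pairM (wordM L).rev (wordM (-L))).Blocks → ℝ≥0∞ :=
    fun q => RM.pw (wtW L μ) (wtW (-L) μ) q.1 with hw
  set Δ : (RM.pairM (wordM L).rev (wordM (-L))).Blocks → Tr i → ℤ :=
    fun q => pairΔ P₁ P₂ q.1 with hΔ
  set O : (RM.pairM (wordM L).rev (wordM (-L))).Blocks → Finset (Tr i → ℤ) :=
    fun q => pairO P₁ P₂ q.1 with hO
  have hw1 : ∑' π, w π = 1 := hFp
  have hE : momE w O γ ≠ ⊤ := by
    refine ne_top_of_le_ne_top hmom (ENNReal.tsum_le_tsum fun q => ?_)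
    gcongr
    exact card_pairO_le P₁ P₂ q.1
  have hp : ∀ b : Bool, proj (stepVec ((i, b) : Step d)) = 0 := projTr_step_i i
  have hwt : ∀ e : Step d, wt μ [e] ≠ 0 := fun e => wt_single_pos (hμ e)
  have hwtop : ∀ l : List (Step d), wt μ l ≠ ⊤ := fun l =>
    ne_top_of_le_ne_top ENNReal.one_ne_top (wt_le_one i l)
  have hneg : ∀ e : Step d, e.1 ≠ i → (-L) (stepVec e) = 0 := by
    rintro ⟨j, b⟩ hj
    exact neg_lev_t (Ne.symm hj) b
  -- the weight of the blocks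
  have hblock : ∀ (tl : List (Step d)) (h1 : ∀ e ∈ tl, e.2 = true ∧ e.1 ≠ i)
      (h2 : ∀ e ∈ tl, (-L) (stepVec e) = 0), w (mkBlock i tl h2) ≠ 0 ∧ w (mkBlock i tl h2) ≠ ⊤ := by
    intro tl h1 h2
    refine ⟨?_, ?_⟩
    · show wt μ [(i, true)] * wt μ (tl ++ [(i, false)]) ≠ 0
      exact mul_ne_zero (hwt _) (wt_corner_ne hμ tl h1)
    · show wt μ [(i, true)] * wt μ (tl ++ [(i, false)]) ≠ ⊤
      exact ENNReal.mul_ne_top (hwtop _) (hwtop _)
  -- the corners
  have hword : ∀ σ : Tr i → Bool, ∃ tl : List (Step d), (∀ e ∈ tl, e.2 = true ∧ e.1 ≠ i) ∧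
      proj (endP 0 tl) = ind σ := by
    intro σ
    obtain ⟨tl, h1, h2⟩ := exists_corner_word i (Finset.univ.filter fun j => σ j = true)
    refine ⟨tl, h1, h2.trans ?_⟩
    funext j
    simp [ind]
  choose tl htl1 htl2 using hword
  have htl3 : ∀ σ, ∀ e ∈ tl σ, (-L) (stepVec e) = 0 := fun σ e he => hneg e (htl1 σ e he).2
  set c : (Tr i → Bool) → (RM.pairM (wordM L).rev (wordM (-L))).Blocks :=
    fun σ => mkBlock i (tl σ) (htl3 σ) with hc
  have hcΔ : ∀ σ, Δ (c σ) = ind σ := by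
    intro σ
    show pairΔ (profA (levL i) proj) (profB (-levL i) proj) (mkBlock i (tl σ) (htl3 σ)).1 = _
    rw [delta_mkBlock hp, htl2]
  obtain ⟨σ₀, _, hmin⟩ := Finset.exists_min_image (Finset.univ : Finset (Tr i → Bool))
    (fun σ => (w (c σ)).toReal) Finset.univ_nonempty
  obtain ⟨hw00, hw0t⟩ := hblock _ (htl1 σ₀) (htl3 σ₀)
  set β : ℝ := min 1 (w (c σ₀)).toReal with hβdef
  have hβ0 : 0 < β := lt_min one_pos (ENNReal.toReal_pos hw00 hw0t)
  have hβ1 : β ≤ 1 := min_le_left _ _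
  have hcw : ∀ σ, ENNReal.ofReal β / (2 : ℝ≥0∞) ^ Fintype.card (Tr i) ≤ w (c σ) := by
    intro σ
    obtain ⟨_, hwt'⟩ := hblock _ (htl1 σ) (htl3 σ)
    calc ENNReal.ofReal β / (2 : ℝ≥0∞) ^ Fintype.card (Tr i) ≤ ENNReal.ofReal β :=
          ENNReal.div_le_of_le_mul (le_mul_of_one_le_right zero_le (one_le_pow₀ (by norm_num)))
      _ ≤ ENNReal.ofReal (w (c σ)).toReal :=
          ENNReal.ofReal_le_ofReal ((min_le_right _ _).trans (hmin σ (Finset.mem_univ σ)))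
      _ = w (c σ) := ENNReal.ofReal_toReal hwt'
  -- the force block
  have hne : Nonempty (Tr i) := by
    rw [← Fintype.card_pos_iff, hcard]
    omega
  obtain ⟨t₁⟩ := hne
  set e1 : Step d := (t₁.1, true) with he1
  set fd : Step d := (i, false) with hfd
  set e₀ : Tr i → ℤ := proj (stepVec e1) with he₀
  have he₀1 : e₀ t₁ = 1 := by
    show stepVec ((t₁.1, true) : Step d) t₁.1 = 1
    rw [stepVec_same]
    rfl
  have htl₁ : ∀ e ∈ [e1], e.2 = true ∧ e.1 ≠ i := by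
    intro e he
    rw [List.mem_singleton] at he
    rw [he]
    exact ⟨rfl, t₁.2⟩
  have htl₂ : ∀ e ∈ [e1], (-L) (stepVec e) = 0 := fun e he => hneg e (htl₁ e he).2
  have hΔ₀ : Δ (mkBlock i [e1] htl₂) = e₀ := by
    show pairΔ (profA (levL i) proj) (profB (-levL i) proj) (mkBlock i [e1] htl₂).1 = _
    rw [delta_mkBlock hp]
    simp only [endP_cons, endP_nil, zero_add]
    rfl
  have hO₀ : ∀ u ∈ O (mkBlock i [e1] htl₂), u = 0 ∨ u = -e₀ := by
    intro u hu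
    obtain ⟨z, hz, rfl⟩ := obstacle_mkBlock hp [e1] htl₂ hu
    simp only [List.cons_append, List.nil_append, posL_cons, posL_nil, List.mem_cons,
      List.not_mem_nil, or_false, zero_add] at hz
    rcases hz with rfl | rfl
    · left
      simp
    · right
      rfl
  obtain ⟨c₀, hc₀, m₀, hsurv⟩ := surv_lower hβ0 hβ1 hs1 hw1 c hcΔ hcw hγ0 hγ1 hsγ hE he₀1 hΔ₀
    (hblock [e1] htl₁ htl₂).1 hO₀
  -- the hazard inequality
  have hL1 : L (stepVec e1) = 0 := by
    show stepVec ((t₁.1, true) : Step d) i = 0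
    exact stepVec_other i (Ne.symm t₁.2) true
  have hLf : L (stepVec fd) = -1 := by
    show stepVec ((i, false) : Step d) i = -1
    rw [stepVec_same]
    rfl
  have hhaz := hazard (μ := μ) hL1 hLf (hp false) i
  have hV : ∀ n : ℕ, (n : ℝ≥0∞) * c₀ ≤ Vbar P₁ P₂ (wtW L μ) (wtW (-L) μ) e₀ := by
    intro n
    have h1 := sum_surv_le P₁ P₂ hM₁ hM₂ (m₀ + n) e₀
    refine le_trans ?_ h1
    rw [Finset.sum_range_add]
    refine le_trans ?_ le_add_self
    calc (n : ℝ≥0∞) * c₀ = ∑ _x ∈ Finset.range n, c₀ := by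
          rw [Finset.sum_const, Finset.card_range, nsmul_eq_mul]
      _ ≤ _ := Finset.sum_le_sum fun x _ => hsurv _ (by omega)
  have htop : Vbar P₁ P₂ (wtW L μ) (wtW (-L) μ) e₀ = ⊤ := by
    by_contra hcon
    obtain ⟨n, hn⟩ := ENNReal.exists_nat_mul_gt hc₀ hcon
    exact absurd (hV n) (not_le.mpr hn)
  rw [htop] at hhaz
  have hpos : wt μ [e1, fd] * q₂ ≠ 0 :=
    mul_ne_zero (wt_corner_ne hμ [e1] htl₁) hq₂
  rw [ENNReal.top_mul hpos] at hhaz
  simp at hhaz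

end Core

section Final

variable {μ : Measure (Row d)} [IsProbabilityMeasure μ]

lemma EscP_mono (L : Site d → ℤ) {β β' : ℝ} (h : β ≤ β') : EscP L β ⊆ EscP L β' := by
  rintro X ⟨h1, c, h2⟩
  refine ⟨h1, c, ?_⟩
  filter_upwards [h2, eventually_ge_atTop 1] with m hm hm1
  refine hm.trans ?_
  have h3 : fPoly β c m ≤ fPoly β' c m := by
    refine Nat.ceil_mono ?_
    gcongr
    exact_mod_cast hm1
  exact_mod_cast h3

/-- The main theorem for exponents larger than one. -/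
theorem poly_range_aux (hd : 4 ≤ d) (hμ : ∀ e : Step d, μ {p | 0 < p.1 e} ≠ 0)
    (Q : Measure (ℕ → Site d)) (hQ : IsAnnealedLaw μ Q) (i : Fin d) {β₁ β₂ : ℝ}
    (hβ₁ : 1 < β₁) (hβ₂ : 1 < β₂) (hβ : β₁ + β₂ < ((d : ℝ) + 1) / 2) :
    Q (EscP (levL i : Site d → ℤ) β₁) = 0 ∨ Q (EscP ((-levL i : Site d →+ ℤ) : Site d → ℤ) β₂) = 0 := by
  classical
  by_contra hcon
  push Not at hcon
  obtain ⟨h1, h2⟩ := hcon
  rw [hQ.unique (isAnnealedLaw_map1 (i₀ := i))] at h1 h2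
  rw [Measure.map_apply measurable_pathMap1 (measurableSet_EscP _ _)] at h1 h2
  obtain ⟨hq₁, c₁, N, p₁, hc₁, hp₁, hs₁⟩ := mass_of_esc (levL_nn i) (by linarith) h1
  obtain ⟨hq₂, c₂, N', p₂, hc₂, hp₂, hs₂⟩ := mass_of_esc (neg_levL_nn i) (by linarith) h2
  exact poly_core hd hμ hq₁ hq₂ hβ₁ hβ₂ hβ hc₁ hc₂ hp₁ hp₂ hs₁ hs₂

/-- **Main theorem.** -/
theorem poly_range (hd : 4 ≤ d) (hμ : ∀ e : Step d, μ {p | 0 < p.1 e} ≠ 0)
    (Q : Measure (ℕ → Site d)) (hQ : IsAnnealedLaw μ Q) (i : Fin d) {β₁ β₂ : ℝ}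
    (hβ₁ : 1 ≤ β₁) (hβ₂ : 1 ≤ β₂) (hβ : β₁ + β₂ < ((d : ℝ) + 1) / 2) :
    Q (EscP (levL i : Site d → ℤ) β₁) = 0 ∨ Q (EscP ((-levL i : Site d →+ ℤ) : Site d → ℤ) β₂) = 0 := by
  set δ : ℝ := (((d : ℝ) + 1) / 2 - (β₁ + β₂)) / 3 with hδ
  have hδ0 : 0 < δ := by
    rw [hδ]
    linarith
  have h := poly_range_aux hd hμ Q hQ i (β₁ := β₁ + δ) (β₂ := β₂ + δ) (by linarith) (by linarith)
    (by rw [hδ]; linarith)
  rcases h with h | h
  · exact Or.inl (measure_mono_null (EscP_mono _ (by linarith)) h)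
  · exact Or.inr (measure_mono_null (EscP_mono _ (by linarith)) h)

lemma EscP_one_subset (L : Site d → ℤ) : EscP L 1 ⊆ EscLin L := by
  rintro X ⟨h1, c, h2⟩
  refine ⟨h1, c, ?_⟩
  filter_upwards [h2] with m hm
  have e : fPoly 1 c m = c * m := by
    unfold fPoly
    rw [Real.rpow_one, ← Nat.cast_mul, Nat.ceil_natCast]
  rwa [e] at hm

/-- **Main theorem, all cases.** -/
theorem poly_range_all (hd : 3 ≤ d) (hμ : ∀ e : Step d, μ {p | 0 < p.1 e} ≠ 0)
    (Q : Measure (ℕ → Site d)) (hQ : IsAnnealedLaw μ Q) (i : Fin d) {β₁ β₂ : ℝ}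
    (hβ₁ : 1 ≤ β₁) (hβ₂ : 1 ≤ β₂) (hβ : β₁ + β₂ < ((d : ℝ) + 1) / 2 ∨ (β₁ = 1 ∧ β₂ = 1)) :
    Q (EscP (levL i : Site d → ℤ) β₁) = 0 ∨ Q (EscP ((-levL i : Site d →+ ℤ) : Site d → ℤ) β₂) = 0 := by
  rcases hβ with hβ | ⟨rfl, rfl⟩
  · have hd4 : 4 ≤ d := by
      by_contra hcon
      have h3 : d = 3 := by omega
      subst h3
      norm_num at hβ
      linarith
    exact poly_range hd4 hμ Q hQ i hβ₁ hβ₂ hβ
  · rcases range_growth hd μ hμ Q hQ i with h | h
    · exact Or.inl (measure_mono_null (EscP_one_subset _) h)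
    · exact Or.inr (measure_mono_null (EscP_one_subset _) h)

/-- A polynomial lower bound of the displacement gives a polynomial bound of the range. -/
lemma speed_subset_EscP (L : Site d → ℤ) {α : ℝ} (hα : 0 < α) :
    {X : ℕ → Site d | ∃ c : ℝ, 0 < c ∧ ∀ᶠ n : ℕ in atTop, c * (n : ℝ) ^ α ≤ (L (X n) : ℝ)} ⊆
      EscP L (1 / α) := by
  classical
  rintro X ⟨c, hc, hev⟩
  obtain ⟨N, hN⟩ := eventually_atTop.mp hev
  have hβ : 0 < 1 / α := by positivity
  refine ⟨?_, ?_⟩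
  · have h1 : Tendsto (fun n : ℕ => c * (n : ℝ) ^ α) atTop atTop :=
      ((tendsto_rpow_atTop hα).comp tendsto_natCast_atTop_atTop).const_mul_atTop hc
    have h2 : Tendsto (fun n : ℕ => ((L (X n) : ℤ) : ℝ)) atTop atTop :=
      tendsto_atTop_mono' _ hev h1
    exact tendsto_intCast_atTop_iff.mp h2
  · obtain ⟨c', hc'⟩ := exists_nat_ge ((1 / c) ^ (1 / α) + (N : ℝ) + 2)
    refine ⟨c', ?_⟩
    filter_upwards [eventually_ge_atTop 1] with m hm
    have hm' : (1 : ℝ) ≤ m := by exact_mod_cast hm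
    set x : ℝ := ((m : ℝ) / c) ^ (1 / α) with hx
    have hx0 : 0 ≤ x := by positivity
    set K : ℕ := N + ⌈x⌉₊ + 1 with hK
    have hsub : sitesBelow L X m ⊆ X '' ((Finset.range K : Finset ℕ) : Set ℕ) := by
      rintro v ⟨k, rfl, hk⟩
      refine ⟨k, ?_, rfl⟩
      simp only [Finset.coe_range, Set.mem_Iio]
      by_cases hkN : k < N
      · omega
      · have h1 := hN k (by omega)
        have h2 : (L (X k) : ℝ) < m := by exact_mod_cast hk k le_rfl
        have h3 : (k : ℝ) ^ α < (m : ℝ) / c := by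
          rw [lt_div_iff₀' hc]
          linarith
        have h4 : (k : ℝ) < x := by
          have h5 := Real.rpow_lt_rpow (by positivity) h3 hβ
          rw [← Real.rpow_mul (by positivity), mul_one_div_cancel hα.ne', Real.rpow_one] at h5
          exact h5
        have h6 : (k : ℝ) < (⌈x⌉₊ : ℝ) := h4.trans_le (Nat.le_ceil x)
        have h7 : k < ⌈x⌉₊ := by exact_mod_cast h6
        omega
    have h1 : (sitesBelow L X m).encard ≤ (K : ℕ∞) := by
      refine (Set.encard_le_encard hsub).trans ((Set.encard_image_le _ _).trans ?_)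
      rw [Set.encard_coe_eq_coe_finsetCard, Finset.card_range]
    refine h1.trans ?_
    have h2 : K ≤ fPoly (1 / α) c' m := by
      have h3 : (K : ℝ) ≤ (c' : ℝ) * (m : ℝ) ^ (1 / α) := by
        have hm1 : 1 ≤ (m : ℝ) ^ (1 / α) := Real.one_le_rpow hm' hβ.le
        have hx1 : x = (1 / c) ^ (1 / α) * (m : ℝ) ^ (1 / α) := by
          rw [hx, ← Real.mul_rpow (by positivity) (by positivity)]
          congr 1
          ring
        have hceil := Nat.ceil_lt_add_one hx0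
        have hK' : (K : ℝ) = (N : ℝ) + (⌈x⌉₊ : ℝ) + 1 := by
          rw [hK]
          push_cast
          ring
        rw [hK']
        have hA : 0 ≤ (1 / c) ^ (1 / α) := by positivity
        have hN0 : (0 : ℝ) ≤ N := by positivity
        calc (N : ℝ) + (⌈x⌉₊ : ℝ) + 1 ≤ (N : ℝ) + (x + 1) + 1 := by linarith
          _ = (1 / c) ^ (1 / α) * (m : ℝ) ^ (1 / α) + ((N : ℝ) + 2) := by rw [hx1]; ring
          _ ≤ (1 / c) ^ (1 / α) * (m : ℝ) ^ (1 / α) + ((N : ℝ) + 2) * (m : ℝ) ^ (1 / α) := by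
              nlinarith
          _ = ((1 / c) ^ (1 / α) + (N : ℝ) + 2) * (m : ℝ) ^ (1 / α) := by ring
          _ ≤ _ := by
              gcongr
      exact Nat.cast_le.mp (h3.trans (Nat.le_ceil _))
    exact_mod_cast h2

/-- **Corollary for polynomial displacements.** -/
theorem poly_speed (hd : 4 ≤ d) (hμ : ∀ e : Step d, μ {p | 0 < p.1 e} ≠ 0)
    (Q : Measure (ℕ → Site d)) (hQ : IsAnnealedLaw μ Q) (i : Fin d) {α₁ α₂ : ℝ}
    (hα₁ : 0 < α₁) (hα₂ : 0 < α₂) (hα₁1 : α₁ ≤ 1) (hα₂1 : α₂ ≤ 1)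
    (hα : 1 / α₁ + 1 / α₂ < ((d : ℝ) + 1) / 2) :
    Q {X | ∃ c : ℝ, 0 < c ∧ ∀ᶠ n : ℕ in atTop, c * (n : ℝ) ^ α₁ ≤ (X n i : ℝ)} = 0 ∨
      Q {X | ∃ c : ℝ, 0 < c ∧ ∀ᶠ n : ℕ in atTop, c * (n : ℝ) ^ α₂ ≤ -(X n i : ℝ)} = 0 := by
  have h1 : 1 ≤ 1 / α₁ := by
    rw [le_div_iff₀ hα₁]
    linarith
  have h2 : 1 ≤ 1 / α₂ := by
    rw [le_div_iff₀ hα₂]
    linarith
  rcases poly_range hd hμ Q hQ i h1 h2 hα with h | h
  · refine Or.inl (measure_mono_null ?_ h)
    intro X hX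
    refine speed_subset_EscP (levL i : Site d → ℤ) hα₁ ?_
    obtain ⟨c, hc, hev⟩ := hX
    refine ⟨c, hc, ?_⟩
    filter_upwards [hev] with n hn
    simpa using hn
  · refine Or.inr (measure_mono_null ?_ h)
    intro X hX
    refine speed_subset_EscP ((-levL i : Site d →+ ℤ) : Site d → ℤ) hα₂ ?_
    obtain ⟨c, hc, hev⟩ := hX
    refine ⟨c, hc, ?_⟩
    filter_upwards [hev] with n hn
    simpa using hn

end Final

end Vale.Agent.Lib.P147.Poly
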