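import Vale.Agent.Lib.P147.RenewalPair

/-!
# Renewal monoids: profiles with values in a general group, occupation numbers and pairs

This is the version for a general transverse group `G` of the corresponding part of the development
for `ℤ × ℤ`.
-/

open scoped ENNReal
open Filter Topology

set_option linter.unusedSectionVars false

namespace Vale.Agent.Lib.P147.Poly

open RM

variable {X : Type*} {M : RM X} {G : Type*} [AddCommGroup G] [DecidableEq G]

/-- The profile of an element: a list of levels with transverse positions. -/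
structure Prof (G : Type*) [AddCommGroup G] (M : RM X) where
  J : X → List (ℕ × G)
  δ : X → G
  J_e : J M.e = []
  J_op : ∀ a b, J (M.op a b) = J a ++ (J b).map (fun s => (s.1 + M.lev a, s.2 + δ a))
  J_lt : ∀ a, ∀ s ∈ J a, s.1 < M.lev a

namespace Prof

variable (P : Prof G M)

/-- The number of distinct entries of the profile at the level `k`. -/
def t (k : ℕ) (a : X) : ℕ := ((P.J a).toFinset.filter (fun s => s.1 = k)).card

/-- The number of distinct entries of the profile. -/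
def len (a : X) : ℕ := (P.J a).toFinset.card

lemma len_e : P.len M.e = 0 := by simp [len, P.J_e]

/-- The shift of the entries of the second factor of a product. -/
def shiftE (a : X) (s : ℕ × G) : ℕ × G := (s.1 + M.lev a, s.2 + P.δ a)

lemma shiftE_inj (a : X) : Function.Injective (P.shiftE a) := by
  rintro ⟨k, u⟩ ⟨k', u'⟩ h
  simp only [shiftE, Prod.mk.injEq, add_left_inj] at h
  rw [h.1, h.2]

lemma toFinset_op (a b : X) :
    (P.J (M.op a b)).toFinset = (P.J a).toFinset ∪ (P.J b).toFinset.image (P.shiftE a) := by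
  rw [P.J_op, List.toFinset_append]
  congr 1
  ext s
  simp only [List.mem_toFinset, List.mem_map, Finset.mem_image, shiftE]

lemma disjoint_op (a b : X) :
    Disjoint (P.J a).toFinset ((P.J b).toFinset.image (P.shiftE a)) := by
  rw [Finset.disjoint_left]
  intro s hs hs'
  obtain ⟨r, _, rfl⟩ := Finset.mem_image.mp hs'
  have h1 := P.J_lt a _ (List.mem_toFinset.mp hs)
  simp only [shiftE] at h1
  omega

lemma len_op (a b : X) : P.len (M.op a b) = P.len a + P.len b := by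
  unfold len
  rw [P.toFinset_op, Finset.card_union_of_disjoint (P.disjoint_op a b),
    Finset.card_image_of_injective _ (P.shiftE_inj a)]

lemma t_op (k : ℕ) (a b : X) :
    P.t k (M.op a b) = P.t k a + (if M.lev a ≤ k then P.t (k - M.lev a) b else 0) := by
  unfold t
  rw [P.toFinset_op, Finset.filter_union, Finset.card_union_of_disjoint
    (Finset.disjoint_filter_filter (P.disjoint_op a b))]
  congr 1
  split_ifs with h
  · have : ((P.J b).toFinset.image (P.shiftE a)).filter (fun s => s.1 = k) =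
        ((P.J b).toFinset.filter (fun s => s.1 = k - M.lev a)).image (P.shiftE a) := by
      ext s
      simp only [Finset.mem_filter, Finset.mem_image, shiftE]
      constructor
      · rintro ⟨⟨r, hr, rfl⟩, hk⟩
        simp only at hk
        exact ⟨r, ⟨hr, by omega⟩, rfl⟩
      · rintro ⟨r, ⟨hr, hk⟩, rfl⟩
        exact ⟨⟨r, hr, rfl⟩, by simp only; omega⟩
    rw [this, Finset.card_image_of_injective _ (P.shiftE_inj a)]
  · rw [Finset.card_eq_zero, Finset.filter_eq_empty_iff]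
    intro s hs
    obtain ⟨r, _, rfl⟩ := Finset.mem_image.mp hs
    simp only [shiftE]
    omega

lemma t_eq_zero {k : ℕ} {a : X} (h : M.lev a ≤ k) : P.t k a = 0 := by
  unfold t
  rw [Finset.card_eq_zero, Finset.filter_eq_empty_iff]
  intro s hs
  have := P.J_lt a s (List.mem_toFinset.mp hs)
  omega

/-- The occupation numbers of distinct levels add up to at most the length. -/
lemma sum_t_le (F : Finset ℕ) (a : X) : ∑ k ∈ F, P.t k a ≤ P.len a := by
  classical
  unfold t len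
  have h : ((P.J a).toFinset.filter (fun s => s.1 ∈ F)).card =
      ∑ k ∈ F, ((P.J a).toFinset.filter (fun s => s.1 = k)).card := by
    rw [Finset.card_eq_sum_card_fiberwise (f := fun s : ℕ × G => s.1) (t := F)]
    · refine Finset.sum_congr rfl fun k hk => ?_
      congr 1
      ext s
      simp only [Finset.mem_filter]
      constructor
      · rintro ⟨⟨h1, _⟩, h3⟩
        exact ⟨h1, h3⟩
      · rintro ⟨h1, h3⟩
        exact ⟨⟨h1, h3 ▸ hk⟩, h3⟩
    · intro s hs
      exact (Finset.mem_filter.mp (Finset.mem_coe.mp hs)).2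
  rw [← h]
  exact Finset.card_filter_le _ _

end Prof

/-- The mass of a level weighted by the occupation of the level `k`. -/
noncomputable def occ (M : RM X) (P : Prof G M) (ω : X → ℝ≥0∞) (m k : ℕ) : ℝ≥0∞ :=
  ∑' x, if M.lev x = m then ω x * (P.t k x : ℝ≥0∞) else 0

section Pairs

variable {X₁ X₂ : Type*} {M₁ : RM X₁} {M₂ : RM X₂} (P₁ : Prof G M₁) (P₂ : Prof G M₂)

/-- The number of pairs of entries on the same level. -/
def pairC (g : PairT M₁ M₂) : ℕ :=
  ∑ k ∈ Finset.range (M₁.lev g.1.1), P₁.t k g.1.1 * P₂.t k g.1.2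

lemma pairC_e : pairC P₁ P₂ (pairM M₁ M₂).e = 0 := by
  simp [pairC, pairM, M₁.lev_e]

lemma pairC_op (g h : PairT M₁ M₂) :
    pairC P₁ P₂ ((pairM M₁ M₂).op g h) = pairC P₁ P₂ g + pairC P₁ P₂ h := by
  unfold pairC
  rw [pairM_op_fst, pairM_op_snd, M₁.lev_op, Finset.sum_range_add]
  congr 1
  · refine Finset.sum_congr rfl fun k hk => ?_
    have hk' := Finset.mem_range.mp hk
    have h2 : ¬ M₂.lev g.1.2 ≤ k := by rw [← g.2]; omega
    rw [P₁.t_op, P₂.t_op, if_neg (by omega), if_neg h2]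
    simp
  · refine Finset.sum_congr rfl fun k _ => ?_
    have h2 : M₂.lev g.1.2 ≤ M₁.lev g.1.1 + k := by rw [← g.2]; omega
    rw [P₁.t_op, P₂.t_op, if_pos (by omega), if_pos h2, P₁.t_eq_zero (by omega),
      P₂.t_eq_zero h2]
    have e1 : M₁.lev g.1.1 + k - M₁.lev g.1.1 = k := by omega
    have e2 : M₁.lev g.1.1 + k - M₂.lev g.1.2 = k := by rw [← g.2]; omega
    rw [e1, e2]
    simp

/-- The first moment of the number of pairs on a level. -/
lemma emom_pair (ω₁ : X₁ → ℝ≥0∞) (ω₂ : X₂ → ℝ≥0∞) (m : ℕ) :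
    emom (pairM M₁ M₂) (pw ω₁ ω₂) (pairC P₁ P₂) m =
      ∑ k ∈ Finset.range m, occ M₁ P₁ ω₁ m k * occ M₂ P₂ ω₂ m k := by
  classical
  have h1 : ∀ k, occ M₁ P₁ ω₁ m k * occ M₂ P₂ ω₂ m k =
      ∑' g : PairT M₁ M₂, if M₁.lev g.1.1 = m then
        (ω₁ g.1.1 * (P₁.t k g.1.1 : ℝ≥0∞)) * (ω₂ g.1.2 * (P₂.t k g.1.2 : ℝ≥0∞)) else 0 := by
    intro k
    exact (tsum_pair_level _ _ m).symm
  simp_rw [h1]
  rw [← Summable.tsum_finsetSum (fun _ _ => ENNReal.summable)]
  unfold emom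
  refine tsum_congr fun g => ?_
  by_cases hg : M₁.lev g.1.1 = m
  · simp only [pairM_lev, hg, if_true, pairC, pw]
    rw [Nat.cast_sum, Finset.mul_sum]
    refine Finset.sum_congr rfl fun k _ => ?_
    push_cast
    ring
  · simp [hg]

open Classical in
/-- The set of differences of the transverse positions of entries on the same level. -/
noncomputable def pairO (g : PairT M₁ M₂) : Finset G :=
  (Finset.range (M₁.lev g.1.1)).biUnion fun k =>
    (((P₁.J g.1.1).filter (fun s => s.1 = k)).toFinset ×ˢ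
      ((P₂.J g.1.2).filter (fun s => s.1 = k)).toFinset).image (fun s => s.1.2 - s.2.2)

lemma mem_pairO (g : PairT M₁ M₂) (D : G) :
    D ∈ pairO P₁ P₂ g ↔ ∃ k u w, (k, u) ∈ P₁.J g.1.1 ∧ (k, w) ∈ P₂.J g.1.2 ∧ u - w = D := by
  classical
  simp only [pairO, Finset.mem_biUnion, Finset.mem_image, Finset.mem_product, List.mem_toFinset,
    List.mem_filter, Finset.mem_range, decide_eq_true_eq]
  constructor
  · rintro ⟨k, _, ⟨⟨k₁, u⟩, ⟨k₂, w⟩⟩, ⟨⟨h1, h2⟩, h3, h4⟩, h5⟩
    simp only at h2 h4 h5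
    refine ⟨k, u, w, ?_, ?_, h5⟩
    · rw [← h2]; exact h1
    · rw [← h4]; exact h3
  · rintro ⟨k, u, w, h1, h2, h3⟩
    exact ⟨k, P₁.J_lt _ _ h1, (((k, u), (k, w))), ⟨⟨h1, rfl⟩, h2, rfl⟩, h3⟩

lemma card_pairO_le (g : PairT M₁ M₂) : (pairO P₁ P₂ g).card ≤ pairC P₁ P₂ g := by
  classical
  unfold pairO pairC
  refine Finset.card_biUnion_le.trans (Finset.sum_le_sum fun k _ => ?_)
  refine Finset.card_image_le.trans ?_
  rw [Finset.card_product]
  refine Nat.mul_le_mul ?_ ?_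
  · rw [Prof.t, List.toFinset_filter]
    exact le_of_eq (by congr! 2; simp)
  · rw [Prof.t, List.toFinset_filter]
    exact le_of_eq (by congr! 2; simp)

/-- The displacement of a pair. -/
def pairΔ (g : PairT M₁ M₂) : G := P₂.δ g.1.2 - P₁.δ g.1.1

lemma mem_J_op₂ {X : Type*} {M : RM X} (P : Prof G M) (a b : X) (k : ℕ) (u : G) :
    (k, u) ∈ P.J (M.op a b) ↔ (k, u) ∈ P.J a ∨
      ∃ k' u', (k', u') ∈ P.J b ∧ k = k' + M.lev a ∧ u = u' + P.δ a := by
  rw [P.J_op, List.mem_append, List.mem_map]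
  constructor
  · rintro (h | ⟨⟨k', u'⟩, h1, h2⟩)
    · exact Or.inl h
    · simp only [Prod.mk.injEq] at h2
      exact Or.inr ⟨k', u', h1, h2.1.symm, h2.2.symm⟩
  · rintro (h | ⟨k', u', h1, h2, h3⟩)
    · exact Or.inl h
    · refine Or.inr ⟨(k', u'), h1, ?_⟩
      simp only [Prod.mk.injEq]
      exact ⟨h2.symm, h3.symm⟩

lemma pairO_op (g h : PairT M₁ M₂) (D : G) :
    D ∈ pairO P₁ P₂ ((pairM M₁ M₂).op g h) ↔
      D ∈ pairO P₁ P₂ g ∨ D + pairΔ P₁ P₂ g ∈ pairO P₁ P₂ h := by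
  rw [mem_pairO, mem_pairO, mem_pairO, pairM_op_fst, pairM_op_snd]
  have hlev : M₂.lev g.1.2 = M₁.lev g.1.1 := g.2.symm
  constructor
  · rintro ⟨k, u, w, h1, h2, h3⟩
    rcases (mem_J_op₂ P₁ _ _ _ _).mp h1 with h1 | ⟨k₁, u₁, h1, hk₁, hu₁⟩ <;>
      rcases (mem_J_op₂ P₂ _ _ _ _).mp h2 with h2 | ⟨k₂, w₂, h2, hk₂, hw₂⟩
    · exact Or.inl ⟨k, u, w, h1, h2, h3⟩
    · exfalso
      have := P₁.J_lt _ _ h1
      simp only at this
      omega
    · exfalso
      have := P₂.J_lt _ _ h2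
      simp only at this
      omega
    · right
      have hk : k₁ = k₂ := by omega
      subst hk
      refine ⟨k₁, u₁, w₂, h1, h2, ?_⟩
      rw [← h3, hu₁, hw₂, pairΔ]
      abel
  · rintro (⟨k, u, w, h1, h2, h3⟩ | ⟨k, u, w, h1, h2, h3⟩)
    · exact ⟨k, u, w, (mem_J_op₂ P₁ _ _ _ _).mpr (Or.inl h1), (mem_J_op₂ P₂ _ _ _ _).mpr (Or.inl h2),
        h3⟩
    · refine ⟨k + M₁.lev g.1.1, u + P₁.δ g.1.1, w + P₂.δ g.1.2,
        (mem_J_op₂ P₁ _ _ _ _).mpr (Or.inr ⟨k, u, h1, rfl, rfl⟩),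
        (mem_J_op₂ P₂ _ _ _ _).mpr (Or.inr ⟨k, w, h2, by rw [hlev], rfl⟩), ?_⟩
      have : D = u - w - pairΔ P₁ P₂ g := by rw [h3]; abel
      rw [this, pairΔ]
      abel

lemma pairO_e (D : G) : D ∉ pairO P₁ P₂ (pairM M₁ M₂).e := by
  rw [mem_pairO]
  rintro ⟨k, u, w, h1, _, _⟩
  have h2 : (k, u) ∈ P₁.J M₁.e := h1
  rw [P₁.J_e] at h2
  simp at h2

open Classical in
/-- The total weight of the pairs without obstacle at `D`. -/
noncomputable def Vbar (ω₁ : X₁ → ℝ≥0∞) (ω₂ : X₂ → ℝ≥0∞) (D : G) : ℝ≥0∞ :=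
  ∑' g : PairT M₁ M₂, pw ω₁ ω₂ g * (if D ∈ pairO P₁ P₂ g then 0 else 1)

variable {ω₁ : X₁ → ℝ≥0∞} {ω₂ : X₂ → ℝ≥0∞}

open Classical in
lemma Vbar_rec (h₁ : M₁.Mult ω₁) (h₂ : M₂.Mult ω₂) (D : G) :
    Vbar P₁ P₂ ω₁ ω₂ D = 1 + ∑' q : (pairM M₁ M₂).Blocks, pw ω₁ ω₂ q.1 *
      (if D ∈ pairO P₁ P₂ q.1 then 0 else Vbar P₁ P₂ ω₁ ω₂ (D + pairΔ P₁ P₂ q.1)) := by
  have hM := pw_mult h₁ h₂
  unfold Vbar
  rw [(pairM M₁ M₂).tsum_decomp]
  congr 1
  · rw [hM.map_e, if_neg (pairO_e P₁ P₂ D), mul_one]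
  · refine tsum_congr fun q => ?_
    by_cases hq : D ∈ pairO P₁ P₂ q.1
    · rw [if_pos hq, mul_zero]
      refine ENNReal.tsum_eq_zero.mpr fun r => ?_
      rw [if_pos ((pairO_op P₁ P₂ _ _ _).mpr (Or.inl hq)), mul_zero]
    · rw [if_neg hq, ← ENNReal.tsum_mul_left]
      refine tsum_congr fun r => ?_
      rw [hM.map_op, mul_assoc]
      congr 2
      by_cases hr : D + pairΔ P₁ P₂ q.1 ∈ pairO P₁ P₂ r
      · rw [if_pos hr, if_pos ((pairO_op P₁ P₂ _ _ _).mpr (Or.inr hr))]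
      · rw [if_neg hr, if_neg]
        rw [pairO_op]
        tauto

end Pairs

section Surv

variable {Blk : Type*}

open Classical in
/-- Survival probability of the chain killed at the obstacles. -/
noncomputable def surv (w : Blk → ℝ≥0∞) (Δ : Blk → G) (O : Blk → Finset G) : ℕ → G → ℝ≥0∞
  | 0, _ => 1
  | n + 1, v => ∑' π, w π * (if v ∈ O π then 0 else surv w Δ O n (v + Δ π))

variable (w : Blk → ℝ≥0∞) (Δ : Blk → G) (O : Blk → Finset G)

lemma surv_zero (v : G) : surv w Δ O 0 v = 1 := rfl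

open Classical in
lemma surv_succ (n : ℕ) (v : G) :
    surv w Δ O (n + 1) v = ∑' π, w π * (if v ∈ O π then 0 else surv w Δ O n (v + Δ π)) := rfl

variable {w}

lemma surv_le_one (hw : ∑' π, w π = 1) (n : ℕ) (v : G) : surv w Δ O n v ≤ 1 := by
  classical
  induction n generalizing v with
  | zero => exact le_rfl
  | succ n ih =>
    rw [surv_succ, ← hw]
    refine ENNReal.tsum_le_tsum fun π => ?_
    calc w π * _ ≤ w π * 1 := by
          gcongr
          split_ifs
          · exact zero_le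
          · exact ih _
      _ = w π := mul_one _

end Surv

section SumSurv

variable {X₁ X₂ : Type*} {M₁ : RM X₁} {M₂ : RM X₂} (P₁ : Prof G M₁) (P₂ : Prof G M₂)
  {ω₁ : X₁ → ℝ≥0∞} {ω₂ : X₂ → ℝ≥0∞}

/-- The killed chain on the blocks: partial sums of the survival probabilities are bounded. -/
lemma sum_surv_le (h₁ : M₁.Mult ω₁) (h₂ : M₂.Mult ω₂) (N : ℕ) (D : G) :
    ∑ n ∈ Finset.range N, surv (fun q : (pairM M₁ M₂).Blocks => pw ω₁ ω₂ q.1)
      (fun q => pairΔ P₁ P₂ q.1) (fun q => pairO P₁ P₂ q.1) n D ≤ Vbar P₁ P₂ ω₁ ω₂ D := by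
  classical
  induction N generalizing D with
  | zero => simp
  | succ N ih =>
    rw [Finset.sum_range_succ', surv_zero, add_comm, Vbar_rec P₁ P₂ h₁ h₂]
    gcongr
    simp_rw [surv_succ]
    rw [← Summable.tsum_finsetSum (fun _ _ => ENNReal.summable)]
    refine ENNReal.tsum_le_tsum fun q => ?_
    rw [← Finset.mul_sum]
    gcongr
    by_cases hq : D ∈ pairO P₁ P₂ q.1
    · simp [hq]
    · simp only [hq, if_false]
      exact ih _

end SumSurv

end Vale.Agent.Lib.P147.Poly
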