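import Vale.Agent.Lib.P147.Poly.Prof

/-!
# Truncated weights on a renewal monoid: tails of the blocks and occupation numbers

If the additive functional `C` is at most `T` with uniformly positive mass on many levels, then the
blocks with `C > T` have a small total mass. Applied at all dyadic scales this bounds the truncated
first moment of the blocks and the truncated occupation numbers of the levels.
-/

open scoped ENNReal
open Filter Topology

set_option linter.unusedSectionVars false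

namespace Vale.Agent.Lib.P147.Poly

open RM

variable {X : Type*} {M : RM X}

/-- Sub-multiplicative weights. -/
structure SubMult (M : RM X) (ν : X → ℝ≥0∞) : Prop where
  map_e : ν M.e ≤ 1
  map_op : ∀ a b, ν (M.op a b) ≤ ν a * ν b

/-- The weight truncated to `C ≤ T`. -/
noncomputable def tr (ω : X → ℝ≥0∞) (C : X → ℕ) (T : ℕ) (x : X) : ℝ≥0∞ :=
  if C x ≤ T then ω x else 0

lemma tr_le (ω : X → ℝ≥0∞) (C : X → ℕ) (T : ℕ) (x : X) : tr ω C T x ≤ ω x := by
  unfold tr
  split_ifs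
  · exact le_rfl
  · exact zero_le

lemma tr_mono (ω : X → ℝ≥0∞) (C : X → ℕ) {T T' : ℕ} (h : T ≤ T') (x : X) :
    tr ω C T x ≤ tr ω C T' x := by
  unfold tr
  split_ifs with h1 h2
  · exact le_rfl
  · exact absurd (h1.trans h) h2
  · exact zero_le
  · exact le_rfl

lemma tr_mul_le {ω : X → ℝ≥0∞} (h : M.Mult ω) {C : X → ℕ}
    (hCop : ∀ a b, C (M.op a b) = C a + C b) (S S' : ℕ) (a b : X) :
    tr ω C S a * tr ω C S' b ≤ tr ω C (S + S') (M.op a b) := by
  unfold tr
  by_cases h1 : C a ≤ S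
  · by_cases h2 : C b ≤ S'
    · rw [if_pos h1, if_pos h2, if_pos (by rw [hCop]; omega), h.map_op]
    · rw [if_neg h2, mul_zero]
      exact zero_le
  · rw [if_neg h1, zero_mul]
    exact zero_le

lemma tr_submult {ω : X → ℝ≥0∞} (h : M.Mult ω) {C : X → ℕ}
    (hCop : ∀ a b, C (M.op a b) = C a + C b) (T : ℕ) : SubMult M (tr ω C T) := by
  constructor
  · exact (tr_le ω C T _).trans h.map_e.le
  · intro a b
    unfold tr
    by_cases h1 : C (M.op a b) ≤ T
    · rw [if_pos h1, if_pos (by rw [hCop] at h1; omega), if_pos (by rw [hCop] at h1; omega),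
        h.map_op]
    · rw [if_neg h1]
      exact zero_le

lemma gsum_tr_le (ω : X → ℝ≥0∞) (C : X → ℕ) (T m : ℕ) :
    M.gsum (tr ω C T) m ≤ M.gsum ω m := by
  classical
  unfold gsum
  refine ENNReal.tsum_le_tsum fun x => ?_
  split_ifs
  · exact tr_le ω C T x
  · exact le_rfl

lemma gsum_tr_mono (ω : X → ℝ≥0∞) (C : X → ℕ) {T T' : ℕ} (h : T ≤ T') (m : ℕ) :
    M.gsum (tr ω C T) m ≤ M.gsum (tr ω C T') m := by
  classical
  unfold gsum
  refine ENNReal.tsum_le_tsum fun x => ?_
  split_ifs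
  · exact tr_mono ω C h x
  · exact le_rfl

lemma gsum_tr_eq (ω : X → ℝ≥0∞) (C : X → ℕ) (T m : ℕ) [∀ x, Decidable (M.lev x = m ∧ C x ≤ T)] :
    M.gsum (tr ω C T) m = ∑' x, if M.lev x = m ∧ C x ≤ T then ω x else 0 := by
  classical
  unfold gsum tr
  refine tsum_congr fun x => ?_
  by_cases h1 : M.lev x = m <;> by_cases h2 : C x ≤ T <;> simp [h1, h2]

section Sub

variable {ν : X → ℝ≥0∞}

lemma gsum_zero_le (h : SubMult M ν) : M.gsum ν 0 ≤ 1 := by
  classical
  unfold gsum
  rw [tsum_eq_single M.e]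
  · rw [if_pos M.lev_e]
    exact h.map_e
  · intro x hx
    rw [if_neg]
    exact fun h0 => hx ((M.lev_eq_zero x).mp h0)

lemma gsum_pos_le (h : SubMult M ν) {m : ℕ} (hm : m ≠ 0) :
    M.gsum ν m ≤ ∑' q : M.Blocks, ν q.1 *
      (if M.lev q.1 ≤ m then M.gsum ν (m - M.lev q.1) else 0) := by
  classical
  unfold gsum
  rw [M.tsum_decomp, if_neg (by rw [M.lev_e]; exact hm.symm), zero_add]
  refine ENNReal.tsum_le_tsum fun q => ?_
  split_ifs with hq
  · rw [← ENNReal.tsum_mul_left]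
    refine ENNReal.tsum_le_tsum fun r => ?_
    rw [M.lev_op]
    by_cases hr : M.lev r = m - M.lev q.1
    · rw [if_pos (by omega), if_pos hr]
      exact h.map_op _ _
    · rw [if_neg (by omega), if_neg hr, mul_zero]
  · simp only [mul_zero]
    refine le_of_eq (ENNReal.tsum_eq_zero.mpr fun r => ?_)
    rw [M.lev_op, if_neg (by omega)]

lemma psum_sub_le (h : SubMult M ν) (N : ℕ) :
    M.psum ν N ≤ 1 + M.bmass ν * M.psum ν N := by
  have h1 : ∑ j ∈ Finset.range N, M.gsum ν (j + 1) ≤ M.bmass ν * M.psum ν N := by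
    calc ∑ j ∈ Finset.range N, M.gsum ν (j + 1)
        ≤ ∑ j ∈ Finset.range N, ∑' q : M.Blocks, ν q.1 *
          (if M.lev q.1 ≤ j + 1 then M.gsum ν (j + 1 - M.lev q.1) else 0) :=
          Finset.sum_le_sum fun j _ => gsum_pos_le h (by omega)
      _ = ∑' q : M.Blocks, ν q.1 *
          ∑ j ∈ Finset.range (N + 1 - M.lev q.1), M.gsum ν j := by
          rw [← Summable.tsum_finsetSum (fun _ _ => ENNReal.summable)]
          refine tsum_congr fun q => ?_
          rw [← Finset.mul_sum, shift_sum _ (block_lev_pos q)]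
      _ ≤ ∑' q : M.Blocks, ν q.1 * M.psum ν N := by
          refine ENNReal.tsum_le_tsum fun q => ?_
          gcongr
          unfold psum
          exact Finset.sum_le_sum_of_subset (Finset.range_subset_range.mpr (by omega))
      _ = _ := by
          unfold bmass
          rw [ENNReal.tsum_mul_right]
  conv_lhs => rw [psum, Finset.sum_range_succ', add_comm]
  exact add_le_add (gsum_zero_le h) h1

end Sub

/-- The total mass of the blocks with `C > T`. -/
noncomputable def tailB (M : RM X) (ω : X → ℝ≥0∞) (C : X → ℕ) (T : ℕ) : ℝ≥0∞ :=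
  ∑' q : M.Blocks, if T < C q.1 then ω q.1 else 0

section Tail

variable {ω : X → ℝ≥0∞}

lemma bmass_tr_add (ω : X → ℝ≥0∞) (C : X → ℕ) (T : ℕ) :
    M.bmass (tr ω C T) + tailB M ω C T = M.bmass ω := by
  unfold bmass tailB
  rw [← ENNReal.tsum_add]
  refine tsum_congr fun q => ?_
  unfold tr
  by_cases h : C q.1 ≤ T
  · rw [if_pos h, if_neg (by omega), add_zero]
  · rw [if_neg h, if_pos (by omega), zero_add]

/-- **The tail of the blocks is controlled by the masses of the truncated levels.** -/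
theorem tail_mul_psum_le (h : M.Mult ω) (hF : M.bmass ω = 1) (hup : ∀ m, M.gsum ω m ≤ 1)
    {C : X → ℕ} (hCop : ∀ a b, C (M.op a b) = C a + C b) (T N : ℕ) :
    tailB M ω C T * M.psum (tr ω C T) N ≤ 1 := by
  have hsub := tr_submult h hCop T
  have hsum := bmass_tr_add (M := M) ω C T
  rw [hF] at hsum
  have hFtop : M.bmass (tr ω C T) ≠ ⊤ :=
    ne_top_of_le_ne_top ENNReal.one_ne_top (hsum ▸ le_self_add)
  have hup' : ∀ m, M.gsum (tr ω C T) m ≤ 1 := fun m => (gsum_tr_le ω C T m).trans (hup m)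
  have htop := psum_ne_top hup' N
  have h1 := psum_sub_le hsub N
  have h2 : M.bmass (tr ω C T) * M.psum (tr ω C T) N + tailB M ω C T * M.psum (tr ω C T) N ≤
      M.bmass (tr ω C T) * M.psum (tr ω C T) N + 1 := by
    rw [← add_mul, hsum, one_mul, add_comm (M.bmass (tr ω C T) * M.psum (tr ω C T) N)]
    exact h1
  exact (ENNReal.add_le_add_iff_left (ENNReal.mul_ne_top hFtop htop)).mp h2

lemma psum_ge_of_range {ν : X → ℝ≥0∞} {q : ℝ≥0∞} {L K : ℕ}
    (hq : ∀ m, L ≤ m → m < L + K → q ≤ M.gsum ν m) :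
    (K : ℝ≥0∞) * q ≤ M.psum ν (L + K) := by
  have e : L + K + 1 = L + (K + 1) := by ring
  unfold psum
  rw [e, Finset.sum_range_add, Finset.sum_range_succ]
  calc (K : ℝ≥0∞) * q = ∑ _j ∈ Finset.range K, q := by
        rw [Finset.sum_const, Finset.card_range, nsmul_eq_mul]
    _ ≤ ∑ j ∈ Finset.range K, M.gsum ν (L + j) :=
        Finset.sum_le_sum fun j hj => hq _ (by omega) (by have := Finset.mem_range.mp hj; omega)
    _ ≤ _ := by
        refine le_trans ?_ le_add_self
        exact le_self_add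

/-- Tail bound from a lower bound of the truncated masses on a range of levels. -/
lemma tail_le_of_range (h : M.Mult ω) (hF : M.bmass ω = 1) (hup : ∀ m, M.gsum ω m ≤ 1)
    {C : X → ℕ} (hCop : ∀ a b, C (M.op a b) = C a + C b) (T L K : ℕ) {q : ℝ≥0∞}
    (hq : ∀ m, L ≤ m → m < L + K → q ≤ M.gsum (tr ω C T) m) :
    tailB M ω C T * ((K : ℝ≥0∞) * q) ≤ 1 :=
  (mul_le_mul' le_rfl (psum_ge_of_range hq)).trans (tail_mul_psum_le h hF hup hCop T _)

end Tail

section Emom

variable {ν : X → ℝ≥0∞}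

/-- Linear growth of the first moment along the levels for a sub-multiplicative weight. -/
lemma emom_sub_le (h : SubMult M ν) (hF : M.bmass ν ≤ 1) (hup : ∀ m, M.gsum ν m ≤ 1)
    (C : X → ℕ) (hC0 : C M.e = 0) (hCop : ∀ a b, C (M.op a b) = C a + C b) (m : ℕ) :
    emom M ν C m ≤ m * ∑' q : M.Blocks, ν q.1 * (C q.1 : ℝ≥0∞) := by
  classical
  set G : ℝ≥0∞ := ∑' q : M.Blocks, ν q.1 * (C q.1 : ℝ≥0∞) with hG
  induction m using Nat.strong_induction_on with
  | _ m ih =>
    rcases Nat.eq_zero_or_pos m with rfl | hm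
    · unfold emom
      rw [tsum_eq_single M.e]
      · simp [M.lev_e, hC0]
      · intro x hx
        rw [if_neg]
        exact fun h0 => hx ((M.lev_eq_zero x).mp h0)
    · obtain ⟨n, rfl⟩ : ∃ n, m = n + 1 := ⟨m - 1, by omega⟩
      unfold emom
      rw [M.tsum_decomp, if_neg (by rw [M.lev_e]; omega), zero_add]
      have hterm : ∀ q : M.Blocks, (∑' r, if M.lev (M.op q.1 r) = n + 1 then
          ν (M.op q.1 r) * (C (M.op q.1 r) : ℝ≥0∞) else 0) ≤
          ν q.1 * (C q.1 : ℝ≥0∞) + ν q.1 * ((n : ℝ≥0∞) * G) := by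
        intro q
        have hq1 := block_lev_pos q
        by_cases hq : M.lev q.1 ≤ n + 1
        · have e : (∑' r, if M.lev (M.op q.1 r) = n + 1 then
              ν (M.op q.1 r) * (C (M.op q.1 r) : ℝ≥0∞) else 0) ≤
              ν q.1 * ((C q.1 : ℝ≥0∞) * M.gsum ν (n + 1 - M.lev q.1) +
                emom M ν C (n + 1 - M.lev q.1)) := by
            unfold gsum emom
            rw [← ENNReal.tsum_mul_left, ← ENNReal.tsum_add, ← ENNReal.tsum_mul_left]
            refine ENNReal.tsum_le_tsum fun r => ?_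
            rw [M.lev_op, hCop]
            by_cases hr : M.lev r = n + 1 - M.lev q.1
            · rw [if_pos (by omega), if_pos hr, if_pos hr]
              push_cast
              calc ν (M.op q.1 r) * ((C q.1 : ℝ≥0∞) + (C r : ℝ≥0∞))
                  ≤ (ν q.1 * ν r) * ((C q.1 : ℝ≥0∞) + (C r : ℝ≥0∞)) := by
                    gcongr
                    exact h.map_op _ _
                _ = _ := by ring
            · rw [if_neg (by omega), if_neg hr, if_neg hr]
              simp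
          refine e.trans ?_
          rw [mul_add]
          gcongr
          · calc (C q.1 : ℝ≥0∞) * M.gsum ν (n + 1 - M.lev q.1) ≤ (C q.1 : ℝ≥0∞) * 1 := by
                  gcongr
                  exact hup _
              _ = _ := mul_one _
          · refine (ih _ (by omega)).trans ?_
            gcongr
            omega
        · have : (∑' r, if M.lev (M.op q.1 r) = n + 1 then
              ν (M.op q.1 r) * (C (M.op q.1 r) : ℝ≥0∞) else 0) = 0 := by
            refine ENNReal.tsum_eq_zero.mpr fun r => ?_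
            rw [M.lev_op, if_neg (by omega)]
          rw [this]
          exact zero_le
      calc _ ≤ ∑' q : M.Blocks, (ν q.1 * (C q.1 : ℝ≥0∞) + ν q.1 * ((n : ℝ≥0∞) * G)) :=
            ENNReal.tsum_le_tsum hterm
        _ = G + M.bmass ν * ((n : ℝ≥0∞) * G) := by
            rw [ENNReal.tsum_add, ENNReal.tsum_mul_right]
            rfl
        _ ≤ G + 1 * ((n : ℝ≥0∞) * G) := by gcongr
        _ = ((n + 1 : ℕ) : ℝ≥0∞) * G := by
            push_cast
            ring

end Emom

section Occ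

variable {G : Type*} [AddCommGroup G] [DecidableEq G] {ω : X → ℝ≥0∞}

/-- Product with a truncated mass on the right. -/
lemma occ_mul_gsum_tr (h : M.Mult ω) (P : Prof G M) (S S' m b k : ℕ) :
    occ M P (tr ω P.len S) m k * M.gsum (tr ω P.len S') b ≤
      occ M P (tr ω P.len (S + S')) (m + b) k := by
  classical
  unfold occ gsum
  rw [← ENNReal.tsum_mul_right]
  simp_rw [← ENNReal.tsum_mul_left]
  refine le_trans ?_ (tsum_op_le (fun x => tr ω P.len (S + S') x * (P.t k x : ℝ≥0∞)) m b)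
  refine ENNReal.tsum_le_tsum fun p => ENNReal.tsum_le_tsum fun r => ?_
  by_cases hp : M.lev p = m
  · by_cases hr : M.lev r = b
    · rw [if_pos hp, if_pos hr, if_pos ⟨hp, hr⟩]
      have h1 := tr_mul_le h P.len_op S S' p r
      have h2 : (P.t k p : ℝ≥0∞) ≤ (P.t k (M.op p r) : ℝ≥0∞) := by
        rw [P.t_op]
        exact_mod_cast Nat.le_add_right _ _
      calc tr ω P.len S p * (P.t k p : ℝ≥0∞) * tr ω P.len S' r
          = (tr ω P.len S p * tr ω P.len S' r) * (P.t k p : ℝ≥0∞) := by ring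
        _ ≤ _ := mul_le_mul' h1 h2
    · simp [hr]
  · simp [hp]

/-- Product with a truncated mass on the left. -/
lemma gsum_mul_occ_tr (h : M.Mult ω) (P : Prof G M) (S S' a n k : ℕ) :
    M.gsum (tr ω P.len S) a * occ M P (tr ω P.len S') n k ≤
      occ M P (tr ω P.len (S + S')) (a + n) (k + a) := by
  classical
  unfold occ gsum
  rw [← ENNReal.tsum_mul_right]
  simp_rw [← ENNReal.tsum_mul_left]
  refine le_trans ?_ (tsum_op_le (fun x => tr ω P.len (S + S') x * (P.t (k + a) x : ℝ≥0∞)) a n)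
  refine ENNReal.tsum_le_tsum fun p => ENNReal.tsum_le_tsum fun r => ?_
  by_cases hp : M.lev p = a
  · by_cases hr : M.lev r = n
    · rw [if_pos hp, if_pos hr, if_pos ⟨hp, hr⟩]
      have h1 := tr_mul_le h P.len_op S S' p r
      have h2 : (P.t k r : ℝ≥0∞) ≤ (P.t (k + a) (M.op p r) : ℝ≥0∞) := by
        rw [P.t_op, if_pos (by omega), hp]
        have e : k + a - a = k := by omega
        rw [e]
        exact_mod_cast Nat.le_add_left _ _
      calc tr ω P.len S p * (tr ω P.len S' r * (P.t k r : ℝ≥0∞))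
          = (tr ω P.len S p * tr ω P.len S' r) * (P.t k r : ℝ≥0∞) := by ring
        _ ≤ _ := mul_le_mul' h1 h2
    · simp [hr]
  · simp [hp]

/-- The occupation numbers of distinct levels add up to at most the first moment of the length. -/
lemma sum_occ_le_emom (ν : X → ℝ≥0∞) (P : Prof G M) (n : ℕ) (F : Finset ℕ) :
    ∑ j ∈ F, occ M P ν n j ≤ emom M ν P.len n := by
  classical
  unfold occ emom
  rw [← Summable.tsum_finsetSum (fun _ _ => ENNReal.summable)]
  refine ENNReal.tsum_le_tsum fun x => ?_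
  by_cases hx : M.lev x = n
  · simp only [if_pos hx]
    rw [← Finset.mul_sum]
    gcongr
    exact_mod_cast P.sum_t_le F x
  · simp [hx]

/-- The truncated first moment of the length on the blocks. -/
noncomputable def gM (M : RM X) (P : Prof G M) (ω : X → ℝ≥0∞) (T : ℕ) : ℝ≥0∞ :=
  ∑' q : M.Blocks, tr ω P.len T q.1 * (P.len q.1 : ℝ≥0∞)

/-- The truncated occupation numbers are bounded by the truncated first moment. -/
theorem occ_tr_le (h : M.Mult ω) (hF : M.bmass ω = 1) (hup : ∀ m, M.gsum ω m ≤ 1) (P : Prof G M)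
    {q : ℝ≥0∞} {m₀ m T : ℕ} (hm : 4 * m₀ ≤ m) (hm1 : 1 ≤ m)
    (hq : ∀ a, m₀ ≤ a → a ≤ m → q ≤ M.gsum (tr ω P.len T) a) (k : ℕ) :
    q * q * occ M P (tr ω P.len T) m k ≤ 4 * gM M P ω (T + (T + T)) := by
  classical
  set S := T + (T + T) with hS
  set Gm := gM M P ω S with hGm
  have hsub := tr_submult h P.len_op S
  have hF' : M.bmass (tr ω P.len S) ≤ 1 := by
    rw [← hF]
    exact ENNReal.tsum_le_tsum fun q => tr_le ω P.len S q.1
  have hup' : ∀ m, M.gsum (tr ω P.len S) m ≤ 1 := fun m => (gsum_tr_le ω P.len S m).trans (hup m)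
  have hem := emom_sub_le hsub hF' hup' P.len P.len_e P.len_op (m + m)
  -- each shift of the level
  have h1 : ∀ a ∈ Finset.Icc m₀ (m - m₀), q * q * occ M P (tr ω P.len T) m k ≤
      occ M P (tr ω P.len S) (m + m) (k + a) := by
    intro a ha
    obtain ⟨ha1, ha2⟩ := Finset.mem_Icc.mp ha
    have e : a + (m + (m - a)) = m + m := by omega
    calc q * q * occ M P (tr ω P.len T) m k
        = q * (occ M P (tr ω P.len T) m k * q) := by ring
      _ ≤ M.gsum (tr ω P.len T) a *
          (occ M P (tr ω P.len T) m k * M.gsum (tr ω P.len T) (m - a)) := by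
          gcongr
          · exact hq a ha1 (by omega)
          · exact hq (m - a) (by omega) (by omega)
      _ ≤ M.gsum (tr ω P.len T) a * occ M P (tr ω P.len (T + T)) (m + (m - a)) k := by
          gcongr
          exact occ_mul_gsum_tr h P _ _ _ _ _
      _ ≤ occ M P (tr ω P.len S) (a + (m + (m - a))) (k + a) := gsum_mul_occ_tr h P _ _ _ _ _
      _ = _ := by rw [e]
  set I := Finset.Icc m₀ (m - m₀) with hI
  have hcard : I.card = m - m₀ + 1 - m₀ := by
    rw [hI, Nat.card_Icc]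
  have hcard2 : m ≤ 2 * I.card := by
    rw [hcard]
    omega
  have h2 : ∑ a ∈ I, occ M P (tr ω P.len S) (m + m) (k + a) ≤ emom M (tr ω P.len S) P.len (m + m) := by
    have := sum_occ_le_emom (tr ω P.len S) P (m + m) (I.image (fun a => k + a))
    rwa [Finset.sum_image (fun a _ b _ hab => by omega)] at this
  have h3 : (m : ℝ≥0∞) * (q * q * occ M P (tr ω P.len T) m k) ≤ (m : ℝ≥0∞) * (4 * Gm) := by
    calc (m : ℝ≥0∞) * (q * q * occ M P (tr ω P.len T) m k)
        ≤ (2 * (I.card : ℝ≥0∞)) * (q * q * occ M P (tr ω P.len T) m k) := by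
          gcongr
          exact_mod_cast hcard2
      _ = 2 * ∑ _a ∈ I, q * q * occ M P (tr ω P.len T) m k := by
          rw [Finset.sum_const, nsmul_eq_mul]
          ring
      _ ≤ 2 * ∑ a ∈ I, occ M P (tr ω P.len S) (m + m) (k + a) := by
          gcongr with a ha
          exact h1 a ha
      _ ≤ 2 * emom M (tr ω P.len S) P.len (m + m) := by gcongr
      _ ≤ 2 * (((m + m : ℕ) : ℝ≥0∞) * Gm) := by
          gcongr
          exact hem
      _ = _ := by
          push_cast
          ring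
  have hmne : (m : ℝ≥0∞) ≠ 0 := by
    have : m ≠ 0 := by omega
    exact_mod_cast this
  exact (ENNReal.mul_le_mul_iff_right hmne (by simp)).mp h3

/-- One step of the dyadic recursion for the truncated first moment. -/
lemma gM_le_add (P : Prof G M) (S S' : ℕ) :
    gM M P ω S' ≤ gM M P ω S + (S' : ℝ≥0∞) * tailB M ω P.len S := by
  unfold gM tailB
  rw [← ENNReal.tsum_mul_left, ← ENNReal.tsum_add]
  refine ENNReal.tsum_le_tsum fun q => ?_
  unfold tr
  by_cases h1 : P.len q.1 ≤ S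
  · by_cases h2 : P.len q.1 ≤ S'
    · rw [if_pos h2, if_pos h1]
      exact le_self_add
    · rw [if_neg h2, zero_mul]
      exact zero_le
  · by_cases h2 : P.len q.1 ≤ S'
    · rw [if_pos h2, if_neg h1, zero_mul, zero_add, if_pos (by omega), mul_comm]
      gcongr
    · rw [if_neg h2, zero_mul]
      exact zero_le

lemma gM_le_self (hF : M.bmass ω = 1) (P : Prof G M) (S : ℕ) : gM M P ω S ≤ (S : ℝ≥0∞) := by
  unfold gM
  calc ∑' q : M.Blocks, tr ω P.len S q.1 * (P.len q.1 : ℝ≥0∞)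
      ≤ ∑' q : M.Blocks, ω q.1 * (S : ℝ≥0∞) := by
        refine ENNReal.tsum_le_tsum fun q => ?_
        unfold tr
        split_ifs with h1
        · gcongr
        · simp
    _ = (S : ℝ≥0∞) := by
        rw [ENNReal.tsum_mul_right]
        have : ∑' q : M.Blocks, ω q.1 = 1 := hF
        rw [this, one_mul]

lemma gM_mono (P : Prof G M) {S S' : ℕ} (h : S ≤ S') : gM M P ω S ≤ gM M P ω S' := by
  unfold gM
  refine ENNReal.tsum_le_tsum fun q => ?_
  gcongr
  exact tr_mono ω P.len h q.1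

end Occ

/-- Solution of the dyadic recursion. -/
lemma geom_rec_le {g : ℕ → ℝ≥0∞} {B C₀ : ℝ} {J₀ : ℕ} (hB : 1 < B) (hC₀ : 0 ≤ C₀)
    (h0 : g J₀ ≠ ⊤) (hrec : ∀ J, J₀ ≤ J → g (J + 1) ≤ g J + ENNReal.ofReal (C₀ * B ^ J)) :
    ∃ K : ℝ, 0 ≤ K ∧ ∀ J, J₀ ≤ J → g J ≤ ENNReal.ofReal (K * B ^ J) := by
  have hB0 : 0 < B := by linarith
  set K : ℝ := (g J₀).toReal / B ^ J₀ + C₀ / (B - 1) with hK
  have hB1 : 0 < B - 1 := by linarith
  have hK0 : 0 ≤ K := by positivity
  refine ⟨K, hK0, fun J hJ => ?_⟩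
  induction J, hJ using Nat.le_induction with
  | base =>
    rw [← ENNReal.ofReal_toReal h0]
    refine ENNReal.ofReal_le_ofReal ?_
    have hpow : 0 < B ^ J₀ := by positivity
    rw [hK, add_mul, div_mul_cancel₀ _ hpow.ne']
    have : 0 ≤ C₀ / (B - 1) * B ^ J₀ := by positivity
    linarith
  | succ J hJ ih =>
    refine (hrec J hJ).trans ?_
    have hpow : 0 < B ^ J := by positivity
    calc g J + ENNReal.ofReal (C₀ * B ^ J)
        ≤ ENNReal.ofReal (K * B ^ J) + ENNReal.ofReal (C₀ * B ^ J) := by gcongr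
      _ = ENNReal.ofReal (K * B ^ J + C₀ * B ^ J) :=
          (ENNReal.ofReal_add (by positivity) (by positivity)).symm
      _ ≤ _ := by
          refine ENNReal.ofReal_le_ofReal ?_
          have h1 : C₀ ≤ K * (B - 1) := by
            have h2 : C₀ / (B - 1) ≤ K := by
              rw [hK]
              have : 0 ≤ (g J₀).toReal / B ^ J₀ := by positivity
              linarith
            rwa [div_le_iff₀ hB1] at h2
          rw [pow_succ]
          have h3 : C₀ * B ^ J ≤ K * (B - 1) * B ^ J := mul_le_mul_of_nonneg_right h1 hpow.le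
          nlinarith

section Single

variable {G : Type*} [AddCommGroup G] [DecidableEq G] {ω : X → ℝ≥0∞}

/-- **Truncated occupation numbers of a process with polynomial range.** -/
theorem occ_poly (h : M.Mult ω) (hF : M.bmass ω = 1) (hup : ∀ m, M.gsum ω m ≤ 1) (P : Prof G M)
    {f : ℕ → ℕ} (hmono : Monotone f) (h3 : ∀ N, 1 ≤ N → f N + (f N + f N) ≤ f (8 * N))
    {c₀ Λ p : ℝ} (hΛ : 2 < Λ) (hc₀ : 0 ≤ c₀) (hf : ∀ J, (f (2 ^ J) : ℝ) ≤ c₀ * Λ ^ J) (hp : 0 < p)
    {m₀ : ℕ} (hs : ∀ m, m₀ ≤ m → ENNReal.ofReal p ≤ M.gsum (tr ω P.len (f m)) m) :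
    ∃ K : ℝ, 0 ≤ K ∧ ∃ J₁ : ℕ, ∀ J, J₁ ≤ J → ∀ m, 2 ^ J ≤ 2 * m → m ≤ 2 ^ J → ∀ k,
      occ M P (tr ω P.len (f (2 ^ J))) m k ≤ ENNReal.ofReal (K * (Λ / 2) ^ J) := by
  classical
  have hΛ0 : 0 < Λ := by linarith
  set B : ℝ := Λ / 2 with hB
  have hB1 : 1 < B := by rw [hB]; linarith
  have hB0 : 0 < B := by linarith
  -- a scale above `m₀`
  obtain ⟨J₀, hJ₀⟩ : ∃ J₀ : ℕ, 4 * m₀ + 1 ≤ 2 ^ J₀ :=
    ⟨4 * m₀ + 1, (Nat.lt_two_pow_self).le⟩
  have hJ₀m : m₀ ≤ 2 ^ J₀ := by omega
  have hmass : ∀ N m, m₀ ≤ m → m ≤ N → ENNReal.ofReal p ≤ M.gsum (tr ω P.len (f N)) m :=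
    fun N m h1 h2 => (hs m h1).trans (gsum_tr_mono ω P.len (hmono h2) m)
  -- the tails at the dyadic scales
  have htail : ∀ J, J₀ ≤ J → tailB M ω P.len (f (2 ^ (J + 1))) ≤
      ENNReal.ofReal (1 / (p * 2 ^ J)) := by
    intro J hJ
    have hpow : m₀ ≤ 2 ^ J := hJ₀m.trans (Nat.pow_le_pow_right (by norm_num) hJ)
    have h1 := tail_le_of_range h hF hup P.len_op (f (2 ^ (J + 1))) (2 ^ J) (2 ^ J)
      (q := ENNReal.ofReal p) (fun m hm1 hm2 => hmass _ m (hpow.trans hm1) (by
        have : 2 ^ (J + 1) = 2 ^ J + 2 ^ J := by ring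
        omega))
    have e : ((2 ^ J : ℕ) : ℝ≥0∞) * ENNReal.ofReal p = ENNReal.ofReal (p * 2 ^ J) := by
      rw [ENNReal.ofReal_mul hp.le, mul_comm]
      congr 1
      rw [ENNReal.ofReal_pow (by norm_num)]
      push_cast
      simp
    rw [e] at h1
    have hpos : 0 < p * 2 ^ J := by positivity
    rw [ENNReal.ofReal_div_of_pos hpos, ENNReal.ofReal_one]
    exact ENNReal.le_div_iff_mul_le (Or.inl (by simpa using hpos)) (Or.inl ENNReal.ofReal_ne_top)
      |>.mpr h1
  -- the recursion for the first moments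
  set g : ℕ → ℝ≥0∞ := fun J => gM M P ω (f (2 ^ J)) with hg
  have hcast : ∀ J, ((f (2 ^ J) : ℕ) : ℝ≥0∞) ≤ ENNReal.ofReal (c₀ * Λ ^ J) := by
    intro J
    rw [← ENNReal.ofReal_natCast]
    exact ENNReal.ofReal_le_ofReal (hf J)
  have hrec : ∀ J, J₀ + 1 ≤ J → g (J + 1) ≤ g J + ENNReal.ofReal ((2 * c₀ * Λ / p) * B ^ J) := by
    intro J hJ
    obtain ⟨J', rfl⟩ : ∃ J', J = J' + 1 := ⟨J - 1, by omega⟩
    refine (gM_le_add P (f (2 ^ (J' + 1))) _).trans ?_
    gcongr
    calc ((f (2 ^ (J' + 1 + 1)) : ℕ) : ℝ≥0∞) * tailB M ω P.len (f (2 ^ (J' + 1)))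
        ≤ ENNReal.ofReal (c₀ * Λ ^ (J' + 1 + 1)) * ENNReal.ofReal (1 / (p * 2 ^ J')) :=
          mul_le_mul' (hcast _) (htail J' (by omega))
      _ = ENNReal.ofReal (c₀ * Λ ^ (J' + 1 + 1) * (1 / (p * 2 ^ J'))) :=
          (ENNReal.ofReal_mul (by positivity)).symm
      _ = _ := by
          congr 1
          rw [hB, div_pow]
          field_simp
          ring
  obtain ⟨K₁, hK₁, hg1⟩ := geom_rec_le (g := g) (J₀ := J₀ + 1) hB1 (by positivity)
    (ne_top_of_le_ne_top (ENNReal.natCast_ne_top _) (gM_le_self hF P _)) hrec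
  -- occupation numbers
  set K : ℝ := (1 / p) * (1 / p) * (4 * (K₁ * B ^ 3)) with hK
  refine ⟨K, by positivity, J₀ + 1, fun J hJ m hm1 hm2 k => ?_⟩
  have hm4 : 4 * m₀ ≤ m := by
    have h1 : 2 ^ (J₀ + 1) ≤ 2 ^ J := Nat.pow_le_pow_right (by norm_num) hJ
    have h2 : 2 ^ (J₀ + 1) = 2 * 2 ^ J₀ := by ring
    omega
  have hm1' : 1 ≤ m := by
    have h1 : 2 ^ (J₀ + 1) ≤ 2 ^ J := Nat.pow_le_pow_right (by norm_num) hJ
    have h2 : 2 ^ (J₀ + 1) = 2 * 2 ^ J₀ := by ring
    omega
  have h1 := occ_tr_le h hF hup P (q := ENNReal.ofReal p) (T := f (2 ^ J)) hm4 hm1'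
    (fun a ha1 ha2 => hmass _ a ha1 (ha2.trans hm2)) k
  have h2 : gM M P ω (f (2 ^ J) + (f (2 ^ J) + f (2 ^ J))) ≤ g (J + 3) := by
    refine gM_mono P ((h3 _ Nat.one_le_two_pow).trans (hmono ?_))
    have : 2 ^ (J + 3) = 8 * 2 ^ J := by ring
    omega
  have h4 : g (J + 3) ≤ ENNReal.ofReal (K₁ * B ^ (J + 3)) := hg1 _ (by omega)
  have hqq : ENNReal.ofReal p * ENNReal.ofReal p ≠ 0 := by
    have : ENNReal.ofReal p ≠ 0 := by simpa using hp
    exact mul_ne_zero this this
  have hqq' : ENNReal.ofReal p * ENNReal.ofReal p ≠ ⊤ :=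
    ENNReal.mul_ne_top ENNReal.ofReal_ne_top ENNReal.ofReal_ne_top
  have h5 : ENNReal.ofReal p * ENNReal.ofReal p * occ M P (tr ω P.len (f (2 ^ J))) m k ≤
      ENNReal.ofReal p * ENNReal.ofReal p * ENNReal.ofReal (K * B ^ J) := by
    refine h1.trans ?_
    rw [← ENNReal.ofReal_mul hp.le, ← ENNReal.ofReal_mul (by positivity)]
    have e4 : (4 : ℝ≥0∞) = ENNReal.ofReal 4 := by norm_num
    calc 4 * gM M P ω (f (2 ^ J) + (f (2 ^ J) + f (2 ^ J)))
        ≤ ENNReal.ofReal 4 * ENNReal.ofReal (K₁ * B ^ (J + 3)) := by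
          rw [← e4]
          gcongr
          exact h2.trans h4
      _ = ENNReal.ofReal (4 * (K₁ * B ^ (J + 3))) := (ENNReal.ofReal_mul (by norm_num)).symm
      _ = _ := by
          congr 1
          rw [hK, pow_add]
          field_simp
  exact (ENNReal.mul_le_mul_iff_right hqq hqq').mp h5

end Single

end Vale.Agent.Lib.P147.Poly
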